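import Vale.Agent.P021.R2.H542.Loc

/-!
# The arithmetic lower bound for the `c = 2` family
-/

set_option autoImplicit false

namespace Vale.Agent.P021.R2.H542

open Vale.Agent.P021.R2.H636
open Filter Topology Finset

/-- the local bounds -/
noncomputable def betE (u : ℕ → ℝ) (T : ℝ) (b f E K p : ℕ) : ℝ :=
  u p * Real.log p +
    (if p ^ 2 ≤ rg b f E K then 2 * ((K : ℝ) * Real.log (rg b f E K)) else 0) +
    (if p = 2 then T else 0)

lemma log_norm_leE (u : ℕ → ℝ) (T : ℝ) (b f E K : ℕ) (p q : ℤ) (hu : ∀ l, 0 ≤ u l)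
    (hloc : ∀ l : ℕ, l.Prime → l ≠ 2 → rg b f E K < l ^ 2 →
      ∃ e : ℕ, padicNorm l (NN b f E K p q) ≤ (l : ℚ) ^ e ∧ (e : ℝ) ≤ u l)
    (h2 : Real.log ((padicNorm 2 (NN b f E K p q) : ℚ) : ℝ) ≤ T)
    (hN : NN b f E K p q ≠ 0) (l : ℕ) (hl : l.Prime) :
    Real.log ((padicNorm l (NN b f E K p q) : ℚ) : ℝ) ≤ betE u T b f E K l := by
  have : Fact l.Prime := ⟨hl⟩
  have hpos : (0 : ℝ) < (padicNorm l (NN b f E K p q) : ℚ) := by
    have h1 : padicNorm l (NN b f E K p q) ≠ 0 := padicNorm.nonzero hN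
    have h2 : 0 ≤ padicNorm l (NN b f E K p q) := padicNorm.nonneg _
    exact_mod_cast lt_of_le_of_ne h2 h1.symm
  have hlog : 0 ≤ u l * Real.log l := mul_nonneg (hu l) (Real.log_natCast_nonneg _)
  have hKR : 0 ≤ (K : ℝ) * Real.log (rg b f E K) :=
    mul_nonneg (Nat.cast_nonneg _) (Real.log_natCast_nonneg _)
  unfold betE
  by_cases h3 : l = 2
  · subst h3
    rw [if_pos rfl]
    have h4 : (0 : ℝ) ≤ (if 2 ^ 2 ≤ rg b f E K then 2 * ((K : ℝ) * Real.log (rg b f E K)) else 0) := by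
      split_ifs
      · linarith only [hKR]
      · exact le_rfl
    linarith only [h2, h4, hlog]
  rw [if_neg h3, add_zero]
  by_cases h7 : l ^ 2 ≤ rg b f E K
  · rw [if_pos h7]
    have h4 : ((padicNorm l (NN b f E K p q) : ℚ) : ℝ) ≤ ((rg b f E K : ℝ) ^ 2) ^ K := by
      exact_mod_cast lo_crude b f E K p q l hl h3
    have h6 := Real.log_le_log hpos h4
    rw [Real.log_pow, Real.log_pow] at h6
    push_cast at h6
    linarith only [hlog, h6]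
  · rw [if_neg h7, add_zero]
    obtain ⟨e, he1, he2⟩ := hloc l hl h3 (not_le.1 h7)
    have h4 : ((padicNorm l (NN b f E K p q) : ℚ) : ℝ) ≤ (l : ℝ) ^ e := by
      exact_mod_cast he1
    have h6 := Real.log_le_log hpos h4
    rw [Real.log_pow] at h6
    exact h6.trans (mul_le_mul_of_nonneg_right he2 (Real.log_natCast_nonneg _))

lemma log_NN_geE (u : ℕ → ℝ) (T : ℝ) (b f E K : ℕ) (p q : ℤ) (hq : 0 < q) (hu : ∀ l, 0 ≤ u l)
    (hloc : ∀ l : ℕ, l.Prime → l ≠ 2 → rg b f E K < l ^ 2 →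
      ∃ e : ℕ, padicNorm l (NN b f E K p q) ≤ (l : ℚ) ^ e ∧ (e : ℝ) ≤ u l)
    (h2 : Real.log ((padicNorm 2 (NN b f E K p q) : ℚ) : ℝ) ≤ T)
    (hN : NN b f E K p q ≠ 0) :
    -(∑ l ∈ (Ioc 0 (rg b f E K)).filter Nat.Prime, u l * Real.log l +
      2 * ((Real.sqrt (rg b f E K) + 7) * ((K : ℝ) * Real.log (rg b f E K))) + T) ≤
      Real.log |((NN b f E K p q : ℚ) : ℝ)| := by
  have h1 := Det.log_abs_ge (NN b f E K p q) hN (rg b f E K) (betE u T b f E K)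
    (fun l hl _ => log_norm_leE u T b f E K p q hu hloc h2 hN l hl)
    (fun l hl hR => lo_big b f E K p q hq l hl hR)
  refine le_trans ?_ h1
  rw [neg_le_neg_iff]
  unfold betE
  rw [sum_add_distrib, sum_add_distrib]
  have e2 : ∑ x ∈ (Ioc 0 (rg b f E K)).filter Nat.Prime, (if x = 2 then T else 0) = T := by
    rw [sum_ite_eq', if_pos]
    rw [Finset.mem_filter, mem_Ioc]
    refine ⟨⟨by norm_num, ?_⟩, Nat.prime_two⟩
    unfold rg
    omega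
  rw [e2]
  have hKR : 0 ≤ (K : ℝ) * Real.log (rg b f E K) :=
    mul_nonneg (Nat.cast_nonneg _) (Real.log_natCast_nonneg _)
  have h3 : ∑ x ∈ (Ioc 0 (rg b f E K)).filter Nat.Prime,
      (if x ^ 2 ≤ rg b f E K then 2 * ((K : ℝ) * Real.log (rg b f E K)) else 0) ≤
      2 * ((Real.sqrt (rg b f E K) + 7) * ((K : ℝ) * Real.log (rg b f E K))) := by
    rw [← sum_filter, sum_const, nsmul_eq_mul, mul_left_comm]
    refine mul_le_mul_of_nonneg_left (mul_le_mul_of_nonneg_right ?_ hKR) zero_le_two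
    have h4 : (((Ioc 0 (rg b f E K)).filter Nat.Prime).filter
        (fun x => x ^ 2 ≤ rg b f E K)) ⊆ range (Nat.sqrt (rg b f E K) + 7) := by
      intro x hx
      rw [Finset.mem_filter] at hx
      rw [Finset.mem_range]
      have : x ≤ Nat.sqrt (rg b f E K) := Nat.le_sqrt'.2 hx.2
      omega
    have h5 := card_le_card h4
    rw [card_range] at h5
    have h6 : ((Nat.sqrt (rg b f E K) : ℕ) : ℝ) ≤ Real.sqrt (rg b f E K) :=
      Real.nat_sqrt_le_real_sqrt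
    calc (_ : ℝ) ≤ ((Nat.sqrt (rg b f E K) + 7 : ℕ) : ℝ) := by exact_mod_cast h5
      _ ≤ _ := by push_cast; linarith only [h6]
  linarith only [h3]

/-- the constant bounding the range -/
noncomputable def XE (K0 b0 f0 E0 : ℕ) : ℝ := 2 * E0 + 2 * K0 + b0 + f0 + 1

lemma XE_pos (K0 b0 f0 E0 : ℕ) : 1 ≤ XE K0 b0 f0 E0 := by
  unfold XE
  have : (0 : ℝ) ≤ 2 * E0 + 2 * K0 + b0 + f0 := by positivity
  linarith only [this]

lemma rg_le (K0 b0 f0 E0 n κ : ℕ) (hn : 13 ≤ n) (hκ : κ ≤ 2) :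
    (rg (b0 * n) (f0 * n) (E0 * n) (K0 * n + κ) : ℝ) ≤ XE K0 b0 f0 E0 * n := by
  have h2 : rg (b0 * n) (f0 * n) (E0 * n) (K0 * n + κ) ≤
      (2 * E0 + 2 * K0 + b0 + f0 + 1) * n := by
    unfold rg
    have e1 : 2 * (E0 * n) + 2 * (K0 * n + κ) + b0 * n + f0 * n + 5 =
      (2 * E0 + 2 * K0 + b0 + f0) * n + (2 * κ + 5) := by ring
    rw [e1, add_mul _ 1, one_mul]
    omega
  calc ((rg (b0 * n) (f0 * n) (E0 * n) (K0 * n + κ) : ℕ) : ℝ) ≤
      (((2 * E0 + 2 * K0 + b0 + f0 + 1) * n : ℕ) : ℝ) := by exact_mod_cast h2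
    _ = XE K0 b0 f0 E0 * n := by unfold XE; push_cast; ring

lemma sum_phi_leE {φ : ℝ → ℝ} (hφ0 : ∀ y, 0 ≤ φ y) {C0 : ℝ} (hC0 : 0 ≤ C0)
    (K0 b0 f0 E0 n κ : ℕ) (hn : 13 ≤ n) (hκ : κ ≤ 2) :
    ∑ l ∈ (Ioc 0 (rg (b0 * n) (f0 * n) (E0 * n) (K0 * n + κ))).filter Nat.Prime,
      (n * φ ((l : ℝ) / n) + C0) * Real.log l ≤
      n * Det.psum φ n (XE K0 b0 f0 E0) + C0 * (Real.log 4 * (XE K0 b0 f0 E0 * n)) := by
  set X : ℝ := XE K0 b0 f0 E0 with hX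
  have hX1 : 1 ≤ X := XE_pos K0 b0 f0 E0
  have hX0 : 0 ≤ X * n := by positivity
  have h1 := Chebyshev.theta_le_log4_mul_x hX0
  have h2 := rg_le K0 b0 f0 E0 n κ hn hκ
  have hsub : (Ioc 0 (rg (b0 * n) (f0 * n) (E0 * n) (K0 * n + κ))).filter Nat.Prime ⊆
      (Ioc 0 ⌊X * n⌋₊).filter Nat.Prime := by
    intro l hl
    rw [Finset.mem_filter, mem_Ioc] at hl ⊢
    exact ⟨⟨hl.1.1, hl.1.2.trans ((Nat.le_floor_iff hX0).2 h2)⟩, hl.2⟩
  calc _ ≤ ∑ l ∈ (Ioc 0 ⌊X * n⌋₊).filter Nat.Prime, (n * φ ((l : ℝ) / n) + C0) * Real.log l := by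
        refine sum_le_sum_of_subset_of_nonneg hsub fun l _ _ => ?_
        have := hφ0 ((l : ℝ) / n)
        have h5 := Real.log_natCast_nonneg l
        positivity
    _ = n * Det.psum φ n X + C0 * Chebyshev.theta (X * n) := by
        rw [Det.psum, Chebyshev.theta, mul_sum, mul_sum, ← sum_add_distrib]
        refine sum_congr rfl fun l _ => ?_
        ring
    _ ≤ _ := by
        have := mul_le_mul_of_nonneg_left h1 hC0
        linarith only [this]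

lemma log_NN_eqE (b f E K : ℕ) (p q : ℤ) (hq : 0 < q)
    (hdet : (HM ((p : ℝ) / q) b f E K).det ≠ 0) :
    Real.log |((NN b f E K p q : ℚ) : ℝ)| =
      (K : ℝ) * Real.log 2 + Real.log ((q : ℝ) ^ K * |(HM ((p : ℝ) / q) b f E K).det|) := by
  have hqR : (0 : ℝ) < q := by exact_mod_cast hq
  have h1 : (0 : ℝ) < (q : ℝ) ^ K * |(HM ((p : ℝ) / q) b f E K).det| :=
    mul_pos (pow_pos hqR K) (abs_pos.2 hdet)
  have h2 : (0 : ℝ) < (2 * (q : ℝ)) ^ K := pow_pos (by linarith only [hqR]) K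
  have h3 : |((NN b f E K p q : ℚ) : ℝ)| = 2 ^ K * ((q : ℝ) ^ K *
      |(HM ((p : ℝ) / q) b f E K).det|) := by
    rw [NN_eq b f E K p q hq, abs_mul, abs_of_pos h2, mul_pow, mul_assoc]
  rw [h3, Real.log_mul (pow_ne_zero K (by norm_num)) h1.ne', Real.log_pow]

/-- **The arithmetic lower bound** from local bounds `n φ (l / n) + C0` at the odd primes and the
bound at the prime 2. -/
theorem arith_lower_gen (K0 b0 f0 E0 : ℕ) {φ : ℝ → ℝ} {Λ C0 c2 : ℝ} (hφ0 : ∀ y, 0 ≤ φ y)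
    (hΛ : 0 ≤ Λ) (hLip : ∀ x y, |φ x - φ y| ≤ Λ * |x - y|) (hC0 : 0 ≤ C0)
    (hloc : ∀ n κ : ℕ, 0 < n → κ ≤ 2 → ∀ (p q : ℤ), 0 < q → ∀ l : ℕ, l.Prime → l ≠ 2 →
      rg (b0 * n) (f0 * n) (E0 * n) (K0 * n + κ) < l ^ 2 →
      ∃ e : ℕ, padicNorm l (NN (b0 * n) (f0 * n) (E0 * n) (K0 * n + κ) p q) ≤ (l : ℚ) ^ e ∧
        (e : ℝ) ≤ n * φ ((l : ℝ) / n) + C0)
    (hT : TwoBound K0 b0 f0 E0 c2) :
    ArithLower K0 b0 f0 E0 ((∫ y in (0 : ℝ)..XE K0 b0 f0 E0, φ y) + c2) := by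
  intro ε hε
  set X : ℝ := XE K0 b0 f0 E0 with hXdef
  have hX1 : 1 ≤ X := XE_pos K0 b0 f0 E0
  have hX0 : 0 < X := by linarith only [hX1]
  set η : ℝ := ε / (8 * (K0 + 2) * X) with hη
  have hη0 : 0 < η := by positivity
  have hη1 : 2 * ((K0 + 2) * (η * X)) = ε / 4 := by rw [hη]; field_simp; norm_num
  have hl2 : 0 < Real.log 2 := Real.log_pos (by norm_num)
  have hl4 : 0 < Real.log 4 := Real.log_pos (by norm_num)
  set B : ℝ := C0 * (Real.log 4 * X) + (K0 + 2) * Real.log 2 with hB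
  have hB0 : 0 ≤ B := by rw [hB]; positivity
  obtain ⟨N0, hN0⟩ := exists_nat_gt (4 * B / ε)
  filter_upwards [Det.psum_le_integral (φ := φ) hX0 hΛ hLip (by positivity : 0 < ε / 4),
    Det.sqrt_log_small hX0 hη0, hT (ε / 4) (by positivity),
    eventually_ge_atTop (N0 + 13)] with n hn1 hn2 hnT hn3 κ hκ p q hq hdet
  have hn13 : 13 ≤ n := by omega
  have hnR : (1 : ℝ) ≤ n := by
    have : 1 ≤ n := by omega
    exact_mod_cast this
  have hnB : B * n ≤ ε / 4 * n ^ 2 :=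
    Det.bn_le hε hN0 (by exact_mod_cast (by omega : N0 ≤ n)) hnR
  have hκR : (κ : ℝ) ≤ 2 := by exact_mod_cast hκ
  have hqR : (0 : ℝ) < q := by exact_mod_cast hq
  have hNN := NN_eq (b0 * n) (f0 * n) (E0 * n) (K0 * n + κ) p q hq
  have hNNR : ((NN (b0 * n) (f0 * n) (E0 * n) (K0 * n + κ) p q : ℚ) : ℝ) ≠ 0 := by
    rw [hNN]
    exact mul_ne_zero (pow_pos (by linarith only [hqR]) _).ne' hdet
  have hNN0 : NN (b0 * n) (f0 * n) (E0 * n) (K0 * n + κ) p q ≠ 0 := by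
    exact_mod_cast hNNR
  have h3 := log_NN_geE (fun l => n * φ ((l : ℝ) / n) + C0) _ _ _ _ _ p q hq
    (fun l => by have := hφ0 ((l : ℝ) / n); positivity)
    (fun l hl h7 hr => hloc n κ (by omega) hκ p q hq l hl h7 hr)
    (hnT κ hκ p q hq hNN0) hNN0
  have h4 := sum_phi_leE hφ0 hC0 K0 b0 f0 E0 n κ hn13 hκ
  have h7 := rg_le K0 b0 f0 E0 n κ hn13 hκ
  have hrng1 : (1 : ℝ) ≤ rg (b0 * n) (f0 * n) (E0 * n) (K0 * n + κ) := by
    have : 1 ≤ rg (b0 * n) (f0 * n) (E0 * n) (K0 * n + κ) := by unfold rg; omega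
    exact_mod_cast this
  rw [← hXdef] at h7 h4
  have h12 : ((K0 * n + κ : ℕ) : ℝ) ≤ (K0 + 2) * n := Det.kk_le hnR hκR
  have h8 : 2 * ((Real.sqrt (rg (b0 * n) (f0 * n) (E0 * n) (K0 * n + κ)) + 7) *
      (((K0 * n + κ : ℕ) : ℝ) * Real.log (rg (b0 * n) (f0 * n) (E0 * n) (K0 * n + κ)))) ≤
      ε / 4 * n ^ 2 := by
    have h13 := Det.mid_le hrng1 h7 (Nat.cast_nonneg (K0 * n + κ)) h12 hn2
    have h14 : 2 * (((K0 : ℝ) + 2) * n * (η * (X * n))) = (2 * ((K0 + 2) * (η * X))) * n ^ 2 := by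
      ring
    rw [hη1] at h14
    rw [← h14]
    linarith only [h13]
  have h9 : (n : ℝ) * Det.psum φ n X ≤
      (∫ y in (0 : ℝ)..X, φ y) * n ^ 2 + ε / 4 * n ^ 2 := by
    refine (mul_le_mul_of_nonneg_left hn1 (zero_le_one.trans hnR)).trans (le_of_eq ?_)
    ring
  have hlogeq := log_NN_eqE (b0 * n) (f0 * n) (E0 * n) (K0 * n + κ) p q hq hdet
  have hfin : -(((∫ y in (0 : ℝ)..X, φ y) + c2) + ε) * (n : ℝ) ^ 2 ≤
      Real.log ((q : ℝ) ^ (K0 * n + κ) *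
          |(HM ((p : ℝ) / q) (b0 * n) (f0 * n) (E0 * n) (K0 * n + κ)).det|) := by
    have e2 : C0 * (Real.log 4 * (X * n)) + ((K0 * n + κ : ℕ) : ℝ) * Real.log 2 ≤ B * n := by
      rw [hB]
      have := mul_le_mul_of_nonneg_right h12 hl2.le
      linarith only [this]
    rw [hlogeq] at h3
    linarith only [hnB, h3, h4, h8, h9, e2]
  exact (Real.le_log_iff_exp_le (mul_pos (pow_pos hqR _) (abs_pos.2 hdet))).1 hfin

end Vale.Agent.P021.R2.H542
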