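import Vale.Agent.P021.R2.H542.Arith

/-!
# The plain arithmetic cost of the `c = 2` family
-/

set_option autoImplicit false

namespace Vale.Agent.P021.R2.H542

open Vale.Agent.P021.R2.H636
open Filter Topology Finset

/-- the normalised number of bad rows -/
noncomputable def phiP (A B K y : ℝ) : ℝ := min K (max (A - y) 0 + max (B - y) 0)

lemma phiP_nonneg {A B K y : ℝ} (hK : 0 ≤ K) : 0 ≤ phiP A B K y :=
  le_min hK (add_nonneg (le_max_right _ _) (le_max_right _ _))

lemma phiP_lip (A B K x y : ℝ) : |phiP A B K x - phiP A B K y| ≤ 2 * |x - y| := by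
  have h1 := Det.max_sub_le (A - x) (A - y)
  have h2 := Det.max_sub_le (B - x) (B - y)
  have e1 : A - x - (A - y) = -(x - y) := by ring
  have e2 : B - x - (B - y) = -(x - y) := by ring
  rw [e1, abs_neg] at h1
  rw [e2, abs_neg] at h2
  unfold phiP
  refine (abs_min_sub_min_le_max _ _ _ _).trans ?_
  rw [sub_self, abs_zero]
  refine max_le (by positivity) ?_
  rw [abs_le] at h1 h2 ⊢
  constructor <;> linarith only [h1, h2]

lemma continuous_phiP (A B K : ℝ) : Continuous (phiP A B K) := by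
  unfold phiP
  fun_prop

lemma trap_le {f : ℝ → ℝ} (hf : Continuous f) {u v P Q : ℝ} (huv : u ≤ v)
    (h : ∀ y ∈ Set.Icc u v, f y * (v - u) ≤ P * (v - y) + Q * (y - u)) :
    ∫ y in u..v, f y ≤ (v - u) * (P + Q) / 2 := by
  rcases huv.eq_or_lt with h1 | h1
  · subst h1
    simp
  · exact Det.int_le_trap hf h1 h

lemma int_phiP_le_aux {A B K X : ℝ} (hAB : A ≤ B) (hD : B - A ≤ K) (hK : K ≤ A + B) (hX : B ≤ X) :
    ∫ y in (0 : ℝ)..X, phiP A B K y ≤ K * (A + B) / 2 - K ^ 2 / 4 + (A - B) ^ 2 / 4 := by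
  have hc := continuous_phiP A B K
  set u : ℝ := (A + B - K) / 2 with hu
  have hu0 : 0 ≤ u := by linarith only [hu, hK]
  have huA : u ≤ A := by linarith only [hu, hD]
  have i1 := trap_le hc (P := K) (Q := K) hu0 fun y hy => by
    have h1 : phiP A B K y ≤ K := min_le_left _ _
    have h2 := mul_le_mul_of_nonneg_right h1 (by linarith only [hu0] : 0 ≤ u - 0)
    linarith only [h2]
  have i2 := trap_le hc (P := K) (Q := B - A) huA fun y hy => by
    have h1 : phiP A B K y ≤ A + B - 2 * y := by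
      refine (min_le_right _ _).trans (le_of_eq ?_)
      rw [max_eq_left (by linarith only [hy.2]), max_eq_left (by linarith only [hy.2, hAB])]
      ring
    have h2 := mul_le_mul_of_nonneg_right h1 (by linarith only [huA] : 0 ≤ A - u)
    have h3 : K = A + B - 2 * u := by rw [hu]; ring
    refine h2.trans (le_of_eq ?_)
    rw [h3]
    ring
  have i3 := trap_le hc (P := B - A) (Q := 0) hAB fun y hy => by
    have h1 : phiP A B K y ≤ B - y := by
      refine (min_le_right _ _).trans (le_of_eq ?_)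
      rw [max_eq_right (by linarith only [hy.1]), max_eq_left (by linarith only [hy.2]), zero_add]
    have h2 := mul_le_mul_of_nonneg_right h1 (by linarith only [hAB] : 0 ≤ B - A)
    refine h2.trans (le_of_eq ?_)
    ring
  have i4 := trap_le hc (P := 0) (Q := 0) hX fun y hy => by
    have h1 : phiP A B K y ≤ 0 := by
      refine (min_le_right _ _).trans (le_of_eq ?_)
      rw [max_eq_right (by linarith only [hy.1, hAB]), max_eq_right (by linarith only [hy.1]),
        zero_add]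
    have h2 := mul_le_mul_of_nonneg_right h1 (by linarith only [hX] : 0 ≤ X - B)
    linarith only [h2]
  have hsplit : ∫ y in (0 : ℝ)..X, phiP A B K y = (∫ y in (0 : ℝ)..u, phiP A B K y) +
      (∫ y in u..A, phiP A B K y) + (∫ y in A..B, phiP A B K y) + ∫ y in B..X, phiP A B K y := by
    rw [intervalIntegral.integral_add_adjacent_intervals (hc.intervalIntegrable _ _)
      (hc.intervalIntegrable _ _), intervalIntegral.integral_add_adjacent_intervals
      (hc.intervalIntegrable _ _) (hc.intervalIntegrable _ _),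
      intervalIntegral.integral_add_adjacent_intervals (hc.intervalIntegrable _ _)
      (hc.intervalIntegrable _ _)]
  rw [hsplit]
  have e1 : (u - 0) * (K + K) / 2 + (A - u) * (K + (B - A)) / 2 + (B - A) * (B - A + 0) / 2 +
      (X - B) * (0 + 0) / 2 = K * (A + B) / 2 - K ^ 2 / 4 + (A - B) ^ 2 / 4 := by
    rw [hu]
    ring
  linarith only [i1, i2, i3, i4, e1]

lemma int_phiP_le {A B K X : ℝ} (hD : |A - B| ≤ K) (hK : K ≤ A + B) (hXA : A ≤ X) (hX : B ≤ X) :
    ∫ y in (0 : ℝ)..X, phiP A B K y ≤ K * (A + B) / 2 - K ^ 2 / 4 + (A - B) ^ 2 / 4 := by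
  rw [abs_le] at hD
  rcases le_total A B with h | h
  · exact int_phiP_le_aux h (by linarith only [hD.1]) hK hX
  · have h1 := int_phiP_le_aux (K := K) h (by linarith only [hD.2]) (by linarith only [hK]) hXA
    have h2 : phiP B A K = phiP A B K := by
      funext y
      unfold phiP
      rw [add_comm]
    rw [h2] at h1
    refine h1.trans (le_of_eq ?_)
    ring

/-- the local bound in the normalised form -/
theorem loc_phiP (K0 b0 f0 E0 n κ : ℕ) (hn : 0 < n) (hκ : κ ≤ 2) (p q : ℤ) (hq : 0 < q) (l : ℕ)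
    (hl : l.Prime) (h2 : l ≠ 2) (hr : rg (b0 * n) (f0 * n) (E0 * n) (K0 * n + κ) < l ^ 2) :
    ∃ e : ℕ, padicNorm l (NN (b0 * n) (f0 * n) (E0 * n) (K0 * n + κ) p q) ≤ (l : ℚ) ^ e ∧
      (e : ℝ) ≤ n * phiP (2 * E0) (2 * K0 + b0 + f0 - 2 * E0) K0 ((l : ℝ) / n) + 5 := by
  have hnR : (0 : ℝ) < n := by exact_mod_cast hn
  have hκR : (κ : ℝ) ≤ 2 := by exact_mod_cast hκ
  have hκ0 : (0 : ℝ) ≤ κ := Nat.cast_nonneg _
  set d : ℕ := (2 * (E0 * n) + 1 - l) + ((2 * (K0 * n + κ) + b0 * n + f0 * n) -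
    (2 * (E0 * n) + l)) with hd
  refine ⟨min (K0 * n + κ) d, ?_, ?_⟩
  · rcases le_total (K0 * n + κ) d with h3 | h3
    · rw [min_eq_left h3]
      exact lo_K _ _ _ _ p q l hl h2 hr
    · rw [min_eq_right h3]
      exact lo_plain _ _ _ _ p q hq l hl h2 hr
  · set y : ℝ := (l : ℝ) / n with hy
    have hly : (l : ℝ) = n * y := by rw [hy]; field_simp
    have hadd : ∀ u v : ℝ, 0 ≤ v → max (u + v) 0 ≤ max u 0 + v := by
      intro u v hv
      exact max_le (by linarith only [le_max_left u 0]) (by linarith only [hv, le_max_right u 0])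
    have h3 := Det.lo_sub (2 * (E0 * n) + 1) l
    have h4 := Det.lo_sub (2 * (K0 * n + κ) + b0 * n + f0 * n) (2 * (E0 * n) + l)
    push_cast at h3 h4
    have e3 : 2 * ((E0 : ℝ) * n) + 1 - l = n * (2 * E0 - y) + 1 := by rw [hly]; ring
    have e4 : 2 * ((K0 : ℝ) * n + κ) + b0 * n + f0 * n - (2 * (E0 * n) + l) =
        n * (2 * K0 + b0 + f0 - 2 * E0 - y) + 2 * κ := by rw [hly]; ring
    rw [e3] at h3
    rw [e4] at h4
    have h5 := hadd (n * (2 * E0 - y)) 1 zero_le_one
    have h6 := hadd (n * (2 * K0 + b0 + f0 - 2 * E0 - y)) (2 * κ) (by linarith only [hκ0])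
    rw [Det.mul_max_zero hnR.le] at h5 h6
    have h7 : (d : ℝ) ≤ n * (max (2 * E0 - y) 0 + max (2 * K0 + b0 + f0 - 2 * E0 - y) 0) + 5 := by
      rw [hd]
      push_cast
      linarith only [h3, h4, h5, h6, hκR]
    have h8 : ((K0 * n + κ : ℕ) : ℝ) ≤ n * K0 + 5 := by
      push_cast
      linarith only [hκR]
    rw [Nat.cast_min, phiP]
    rw [mul_min_of_nonneg _ _ hnR.le, ← min_add_add_right]
    exact min_le_min h8 h7

/-- the plain arithmetic cost at the odd primes -/
noncomputable def cplain (K0 b0 f0 E0 : ℕ) : ℝ :=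
  3 / 4 * (K0 : ℝ) ^ 2 + K0 * (b0 + f0) / 2 + (4 * E0 - 2 * K0 - b0 - f0) ^ 2 / 4

/-- **T1a.** The arithmetic lower bound from the bound at the prime 2. -/
theorem arithLower_plain (K0 b0 f0 E0 : ℕ) {c2 : ℝ} (hT : TwoBound K0 b0 f0 E0 c2)
    (hD : |4 * (E0 : ℝ) - 2 * K0 - b0 - f0| ≤ K0) :
    ArithLower K0 b0 f0 E0 (cplain K0 b0 f0 E0 + c2) := by
  have h1 := arith_lower_gen K0 b0 f0 E0 (φ := phiP (2 * E0) (2 * K0 + b0 + f0 - 2 * E0) K0)
    (Λ := 2) (C0 := 5) (c2 := c2) (fun y => phiP_nonneg (Nat.cast_nonneg _)) zero_le_two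
    (fun x y => phiP_lip _ _ _ x y) (by norm_num)
    (fun n κ hn hκ p q hq l hl h2 hr => loc_phiP K0 b0 f0 E0 n κ hn hκ p q hq l hl h2 hr) hT
  have hK0 : (0 : ℝ) ≤ K0 := Nat.cast_nonneg _
  have hb0 : (0 : ℝ) ≤ b0 := Nat.cast_nonneg _
  have hf0 : (0 : ℝ) ≤ f0 := Nat.cast_nonneg _
  have hE0 : (0 : ℝ) ≤ E0 := Nat.cast_nonneg _
  have h2 : ∫ y in (0 : ℝ)..XE K0 b0 f0 E0, phiP (2 * E0) (2 * K0 + b0 + f0 - 2 * E0) K0 y ≤
      cplain K0 b0 f0 E0 := by
    refine (int_phiP_le ?_ ?_ ?_ ?_).trans (le_of_eq ?_)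
    · refine le_trans (le_of_eq ?_) hD
      congr 1
      ring
    · linarith only [hK0, hb0, hf0]
    · unfold XE
      linarith only [hK0, hb0, hf0, hE0]
    · unfold XE
      linarith only [hK0, hb0, hf0, hE0]
    · unfold cplain
      ring
  intro ε hε
  filter_upwards [h1 ε hε] with n hn κ hκ p q hq hdet
  refine le_trans (Real.exp_le_exp.2 ?_) (hn κ hκ p q hq hdet)
  have h3 : (0 : ℝ) ≤ (n : ℝ) ^ 2 := by positivity
  have h4 := mul_le_mul_of_nonneg_right h2 h3
  linarith only [h4]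

end Vale.Agent.P021.R2.H542
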