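import Vale.Agent.P021.R2.H542.Val

/-!
# Local bounds of the determinant `NN` at the odd primes
-/

set_option autoImplicit false

open Polynomial Finset

namespace Vale.Agent.P021.R2.H542

open Vale.Agent.P021.R2.H636

/-- the polynomial `r² - 8` over `ℤ` -/
noncomputable def Qz : ℤ[X] := X ^ 2 - C 8

theorem Qz_monic : Qz.Monic := by
  rw [Qz]
  monicity!

theorem Qz_natDegree : Qz.natDegree = 2 := by
  rw [Qz]
  compute_degree!

theorem Qz_map : Qz.map (Int.castRingHom ℝ) = X ^ 2 - C 8 := by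
  have h2 : (Int.castRingHom ℝ) 8 = 8 := by simp
  rw [Qz, Polynomial.map_sub, Polynomial.map_pow, map_X, map_C, h2]

theorem LE_mul_Q (p q : ℤ) (hq : 0 < q) (E : ℕ) (F : ℤ[X]) :
    LE p q (E + 1) (Qz * F) = LE p q E F := by
  have h : ((LE p q (E + 1) (Qz * F) : ℚ) : ℝ) = ((LE p q E F : ℚ) : ℝ) := by
    rw [LE_real _ _ hq, LE_real _ _ hq, Polynomial.map_mul, Qz_map, Lam_mul_Q]
  exact_mod_cast h

theorem LE_mul_Q_pow (p q : ℤ) (hq : 0 < q) (E t : ℕ) (F : ℤ[X]) :
    LE p q (E + t) (Qz ^ t * F) = LE p q E F := by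
  induction t with
  | zero => rw [pow_zero, one_mul, add_zero]
  | succ t ih => rw [pow_succ', mul_assoc, ← add_assoc, LE_mul_Q p q hq, ih]

theorem LE_norm_le (l : ℕ) [Fact l.Prime] (p q : ℤ) (E : ℕ) (F : ℤ[X]) (B : ℚ) (hB : 0 ≤ B)
    (h : ∀ k ≤ F.natDegree, padicNorm l (cK p q E k) ≤ B) : padicNorm l (LE p q E F) ≤ B := by
  rw [LE_eq_sum p q E F (Nat.lt_succ_self _)]
  have h1 := val_sum_le l 1 (range (F.natDegree + 1)) (fun j => (F.coeff j : ℚ) * cK p q E j)
    hB one_ne_zero ?_
  · rwa [pow_one] at h1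
  · intro j hj
    rw [mem_range] at hj
    rw [pow_one, padicNorm.mul]
    calc _ ≤ 1 * B := mul_le_mul (padicNorm.of_int _) (h j (by omega)) (padicNorm.nonneg _)
          zero_le_one
      _ = B := one_mul B

/-- the size of the indices -/
def rg (b f E K : ℕ) : ℕ := 2 * E + 2 * K + b + f + 5

theorem row_natDegree (b f K : ℕ) (F : ℤ[X]) {i j : ℕ} (hF : F.natDegree = i) (hi : i < K)
    (hj : j < K) : (F * X ^ j * wpz b f).natDegree ≤ i + j + (b + f) := by
  apply natDegree_mul_le_of_le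
  · exact natDegree_mul_le_of_le hF.le (natDegree_X_pow_le j)
  · exact wpz_natDegree_le _ _

theorem det_bound (b f E K : ℕ) (p q : ℤ) (l : ℕ) (hl : l.Prime) (u : ℕ → ℤ[X])
    (hu : ∀ i < K, (u i).Monic) (hd : ∀ i < K, (u i).natDegree = i)
    (good : ℕ → Prop) [DecidablePred good] (N : ℕ) (B : ℚ) (hB : 1 ≤ B)
    (hN : ((Finset.range K).filter fun i => ¬ good i).card ≤ N)
    (hgood : ∀ i < K, good i → ∀ j < K,
      padicNorm l (LE p q E (u i * X ^ j * wpz b f)) ≤ 1)
    (hall : ∀ i < K, ∀ j < K, padicNorm l (LE p q E (u i * X ^ j * wpz b f)) ≤ B) :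
    padicNorm l (NN b f E K p q) ≤ B ^ N := by
  have : Fact l.Prime := ⟨hl⟩
  rw [NN_basis b f E K p q u (fun j => X ^ j) hu hd (fun j _ => monic_X_pow j)
    (fun j _ => natDegree_X_pow j)]
  have h0 := Det.norm_det_le l 1 one_ne_zero
    (Matrix.of fun i j : Fin K => LE p q E (u i * X ^ (j : ℕ) * wpz b f))
    (fun i => if good i then 1 else B) (fun _ => 1)
    (fun i => by split_ifs <;> linarith only [hB]) (fun _ => zero_le_one) ?_
  · rw [pow_one, Finset.prod_const_one, mul_one] at h0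
    refine h0.trans ?_
    rw [Fin.prod_univ_eq_prod_range (fun i => if good i then (1 : ℚ) else B) K, Finset.prod_ite,
      Finset.prod_const_one, one_mul, Finset.prod_const]
    exact pow_le_pow_right₀ hB hN
  · intro i j
    rw [Matrix.of_apply, pow_one, mul_one]
    split_ifs with hg
    · exact hgood i i.2 hg j j.2
    · exact hall i i.2 j j.2

/-- all entries have at most simple poles -/
theorem lo_all (b f E K : ℕ) (p q : ℤ) (l : ℕ) (hl : l.Prime) (h2 : l ≠ 2)
    (hr : rg b f E K < l ^ 2) (F : ℤ[X]) {i j : ℕ} (hF : F.natDegree = i) (hi : i < K)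
    (hj : j < K) : padicNorm l (LE p q E (F * X ^ j * wpz b f)) ≤ l := by
  have : Fact l.Prime := ⟨hl⟩
  have hdeg := row_natDegree b f K F hF hi hj
  unfold rg at hr
  exact LE_norm_le l p q E _ _ (by positivity) fun k hk => cK_all l h2 p q E k (by omega)

/-- the trivial bound -/
theorem lo_K (b f E K : ℕ) (p q : ℤ) (l : ℕ) (hl : l.Prime) (h2 : l ≠ 2)
    (hr : rg b f E K < l ^ 2) : padicNorm l (NN b f E K p q) ≤ (l : ℚ) ^ K := by
  refine det_bound b f E K p q l hl (fun i => X ^ i) (fun i _ => monic_X_pow i)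
    (fun i _ => natDegree_X_pow i) (fun _ => False) K l (by exact_mod_cast hl.one_lt.le) ?_
    (fun _ _ h => h.elim)
    (fun i hi j hj => lo_all b f E K p q l hl h2 hr _ (natDegree_X_pow i) hi hj)
  exact (Finset.card_filter_le _ _).trans (by rw [Finset.card_range])

/-- the crude bound -/
theorem lo_crude (b f E K : ℕ) (p q : ℤ) (l : ℕ) (hl : l.Prime) (h2 : l ≠ 2) :
    padicNorm l (NN b f E K p q) ≤ ((rg b f E K : ℚ) ^ 2) ^ K := by
  have : Fact l.Prime := ⟨hl⟩
  have hR : (1 : ℚ) ≤ (rg b f E K : ℚ) ^ 2 := by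
    have : 1 ≤ rg b f E K := by unfold rg; omega
    exact one_le_pow₀ (by exact_mod_cast this)
  refine det_bound b f E K p q l hl (fun i => X ^ i) (fun i _ => monic_X_pow i)
    (fun i _ => natDegree_X_pow i) (fun _ => False) K _ hR ?_ (fun _ _ h => h.elim) ?_
  · exact (Finset.card_filter_le _ _).trans (by rw [Finset.card_range])
  · intro i hi j hj
    have hdeg := row_natDegree b f K (X ^ i) (natDegree_X_pow i) hi hj
    refine LE_norm_le l p q E _ _ (zero_le_one.trans hR) fun k hk =>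
      cK_crude l h2 p q E k _ ?_
    unfold rg
    omega

/-- the row basis adapted to the pole at `r² = 8` -/
noncomputable def urow (t i : ℕ) : ℤ[X] := if 2 * t ≤ i then Qz ^ t * X ^ (i - 2 * t) else X ^ i

theorem urow_monic (t i : ℕ) : (urow t i).Monic := by
  rw [urow]
  split_ifs
  · exact (Qz_monic.pow t).mul (monic_X_pow _)
  · exact monic_X_pow _

theorem urow_natDegree (t i : ℕ) : (urow t i).natDegree = i := by
  rw [urow]
  split_ifs with h
  · rw [(Qz_monic.pow t).natDegree_mul (monic_X_pow _), Qz_monic.natDegree_pow, Qz_natDegree,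
      natDegree_X_pow]
    omega
  · exact natDegree_X_pow _

/-- the number of bad rows -/
theorem lo_plain (b f E K : ℕ) (p q : ℤ) (hq : 0 < q) (l : ℕ) (hl : l.Prime) (h2 : l ≠ 2)
    (hr : rg b f E K < l ^ 2) : padicNorm l (NN b f E K p q) ≤
      (l : ℚ) ^ ((2 * E + 1 - l) + ((2 * K + b + f) - (2 * E + l))) := by
  have hf : Fact l.Prime := ⟨hl⟩
  obtain ⟨h, hh⟩ := hl.odd_of_ne_two h2
  set t : ℕ := E - h with ht
  have ht2 : 2 * t = 2 * E + 1 - l := by omega
  refine det_bound b f E K p q l hl (urow t) (fun i _ => urow_monic t i)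
    (fun i _ => urow_natDegree t i)
    (fun i => 2 * t ≤ i ∧ i + K + b + f ≤ 2 * E + l) _ l (by exact_mod_cast hl.one_lt.le) ?_ ?_
    (fun i hi j hj => lo_all b f E K p q l hl h2 hr _ (urow_natDegree t i) hi hj)
  · rw [← ht2]
    apply Det.lo_count
    intro i hi hni
    by_contra hcon
    rw [not_or] at hcon
    apply hni
    omega
  · intro i hi hg j hj
    have htE : t ≤ E := by omega
    have h3 : urow t i * X ^ j * wpz b f = Qz ^ t * (X ^ (i - 2 * t) * X ^ j * wpz b f) := by
      rw [urow, if_pos hg.1]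
      ring
    have h4 : E = (E - t) + t := by omega
    rw [h3]
    conv_lhs => rw [h4]
    rw [LE_mul_Q_pow p q hq]
    have hdeg := row_natDegree b f K (X ^ (i - 2 * t)) (natDegree_X_pow _) (by omega : i - 2 * t < K)
      hj
    refine LE_norm_le l p q (E - t) _ _ zero_le_one fun k hk =>
      cK_good l h2 p q (E - t) k (by omega) (by omega)

/-- primes larger than the range -/
theorem lo_big (b f E K : ℕ) (p q : ℤ) (hq : 0 < q) (l : ℕ) (hl : l.Prime)
    (hr : rg b f E K < l) : padicNorm l (NN b f E K p q) ≤ 1 := by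
  have h2 : l ≠ 2 := by
    unfold rg at hr
    omega
  have h3 := lo_plain b f E K p q hq l hl h2
    (hr.trans_le (Nat.le_self_pow two_ne_zero l))
  have h4 : (2 * E + 1 - l) + ((2 * K + b + f) - (2 * E + l)) = 0 := by
    unfold rg at hr
    omega
  rwa [h4, pow_zero] at h3

end Vale.Agent.P021.R2.H542
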