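import Vale.Agent.P021.Bdl.B3
import Vale.Agent.P021.R2.H636.Mom

/-!
# The rational determinant `NN = (2 q)^K det HM (p / q)` of the `c = 2` family

Definitions used by the arithmetic part (odd primes: `R2/H542`, prime 2: `R2/H120`).
-/

set_option autoImplicit false

open Polynomial Finset

namespace Vale.Agent.P021.R2.H542

open Vale.Agent.P021.R2.H636

/-- the coefficient sequence of the rational determinant: `2 q Λ_{p/q}(r^k (r²-8)^{-E})` -/
def cK (p q : ℤ) (E : ℕ) (k : ℤ) : ℚ :=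
  (p : ℚ) * mA k.toNat (-(E : ℤ)) + 2 * (q : ℚ) * mB k.toNat (-(E : ℤ))

/-- `F ↦ 2 q Λ_{p/q}(F (r²-8)^{-E})` on integer polynomials -/
noncomputable def LE (p q : ℤ) (E : ℕ) : ℤ[X] →ₗ[ℤ] ℚ := Det.LZ (cK p q E) 0

/-- the weight polynomial over `ℤ` -/
noncomputable def wpz (b f : ℕ) : ℤ[X] := (X - C 2) ^ b * (X - C 3) ^ f

/-- the rational determinant -/
noncomputable def NN (b f E K : ℕ) (p q : ℤ) : ℚ :=
  (Matrix.of fun i j : Fin K => LE p q E (X ^ ((i : ℕ) + (j : ℕ)) * wpz b f)).det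

theorem LE_X_pow (p q : ℤ) (E k : ℕ) : LE p q E (X ^ k) = cK p q E k := by
  rw [LE, Det.LZ_X_pow]
  simp

theorem LE_monomial (p q : ℤ) (E k : ℕ) (w : ℤ) :
    LE p q E (monomial k w) = w * cK p q E k := by
  rw [LE, Det.LZ_monomial]
  simp

theorem cK_nat (p q : ℤ) (E k : ℕ) :
    cK p q E k = (p : ℚ) * mA k (-(E : ℤ)) + 2 * (q : ℚ) * mB k (-(E : ℤ)) := by
  rw [cK, Int.toNat_natCast]

theorem LE_eq_sum (p q : ℤ) (E : ℕ) (F : ℤ[X]) {N : ℕ} (hN : F.natDegree < N) :
    LE p q E F = ∑ j ∈ Finset.range N, (F.coeff j : ℚ) * cK p q E j := by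
  rw [LE, Det.LZ_eq_sum _ _ _ hN]
  refine Finset.sum_congr rfl fun j _ => ?_
  simp

theorem wpz_map (b f : ℕ) : (wpz b f).map (Int.castRingHom ℝ) = Wp b f := by
  have h2 : (Int.castRingHom ℝ) 2 = 2 := by simp
  have h3 : (Int.castRingHom ℝ) 3 = 3 := by simp
  rw [wpz, Wp, Polynomial.map_mul, Polynomial.map_pow, Polynomial.map_pow, Polynomial.map_sub,
    Polynomial.map_sub, map_X, map_C, map_C, h2, h3]

theorem wpz_natDegree_le (b f : ℕ) : (wpz b f).natDegree ≤ b + f := by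
  rw [wpz]
  have h1 : (X - C (2 : ℤ)).natDegree ≤ 1 := by compute_degree
  have h2 : (X - C (3 : ℤ)).natDegree ≤ 1 := by compute_degree
  have h3 := natDegree_pow_le_of_le b h1
  have h4 := natDegree_pow_le_of_le f h2
  have h5 := natDegree_mul_le_of_le h3 h4
  omega

/-- the functional over `ℚ` and over `ℝ` -/
theorem LE_real (p q : ℤ) (hq : 0 < q) (E : ℕ) (F : ℤ[X]) :
    ((LE p q E F : ℚ) : ℝ) = 2 * (q : ℝ) * Lam ((p : ℝ) / q) E (F.map (Int.castRingHom ℝ)) := by
  have hq0 : (q : ℝ) ≠ 0 := by exact_mod_cast hq.ne'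
  induction F using Polynomial.induction_on' with
  | add p q hp hq => rw [map_add, Polynomial.map_add, map_add, Rat.cast_add, hp, hq]; ring
  | monomial k w =>
    rw [LE_monomial, Polynomial.map_monomial, cK_nat]
    have h1 : (monomial k ((Int.castRingHom ℝ) w) : ℝ[X]) = (w : ℝ) • X ^ k := by
      rw [← C_mul_X_pow_eq_monomial, smul_eq_C_mul]
      rfl
    rw [h1, map_smul, Lam_X_pow, mom, smul_eq_mul]
    push_cast
    field_simp

theorem NN_eq (b f E K : ℕ) (p q : ℤ) (hq : 0 < q) :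
    ((NN b f E K p q : ℚ) : ℝ) = (2 * (q : ℝ)) ^ K * (HM ((p : ℝ) / q) b f E K).det := by
  have h1 : ((NN b f E K p q : ℚ) : ℝ) = (Matrix.map (Matrix.of fun i j : Fin K =>
      LE p q E (X ^ ((i : ℕ) + (j : ℕ)) * wpz b f)) (Rat.castHom ℝ)).det := by
    rw [NN, ← RingHom.mapMatrix_apply, ← RingHom.map_det]; rfl
  have h2 : (Matrix.map (Matrix.of fun i j : Fin K =>
      LE p q E (X ^ ((i : ℕ) + (j : ℕ)) * wpz b f)) (Rat.castHom ℝ)) =
      (2 * (q : ℝ)) • HM ((p : ℝ) / q) b f E K := by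
    ext i j
    rw [Matrix.map_apply, Matrix.smul_apply, Matrix.of_apply, HM, Matrix.of_apply, smul_eq_mul]
    have h3 := LE_real p q hq E (X ^ ((i : ℕ) + (j : ℕ)) * wpz b f)
    rw [Polynomial.map_mul, Polynomial.map_pow, Polynomial.map_X, wpz_map] at h3
    exact h3
  rw [h1, h2, Matrix.det_smul, Fintype.card_fin]

/-- the Hankel determinant in arbitrary monic bases for rows and columns -/
theorem NN_basis (b f E K : ℕ) (p q : ℤ) (u v : ℕ → ℤ[X]) (hu : ∀ i < K, (u i).Monic)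
    (hud : ∀ i < K, (u i).natDegree = i) (hv : ∀ i < K, (v i).Monic)
    (hvd : ∀ i < K, (v i).natDegree = i) :
    NN b f E K p q =
      (Matrix.of fun i j : Fin K => LE p q E (u i * v j * wpz b f)).det := by
  have key : ∀ g : ℕ → ℤ[X], (∀ i < K, (g i).Monic) → (∀ i < K, (g i).natDegree = i) →
      (Matrix.of fun i k : Fin K => ((g i).coeff k : ℚ)).det = 1 := by
    intro g hg hgd
    rw [Matrix.det_of_isLowerTriangular]
    · refine Finset.prod_eq_one fun i _ => ?_
      have h1 := hg i i.2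
      rw [Monic, leadingCoeff, hgd i i.2] at h1
      rw [Matrix.of_apply, h1, Int.cast_one]
    · intro i j hij
      have hij' : (i : ℕ) < j := hij
      rw [Matrix.of_apply, coeff_eq_zero_of_natDegree_lt (by rw [hgd i i.2]; exact hij'),
        Int.cast_zero]
  set U : Matrix (Fin K) (Fin K) ℚ := Matrix.of fun i k => ((u i).coeff k : ℚ) with hU
  set V : Matrix (Fin K) (Fin K) ℚ := Matrix.of fun i k => ((v i).coeff k : ℚ) with hV
  have hmat : (Matrix.of fun i j : Fin K => LE p q E (u i * v j * wpz b f)) =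
      U * (Matrix.of fun i j : Fin K => LE p q E (X ^ ((i : ℕ) + (j : ℕ)) * wpz b f)) *
        V.transpose := by
    ext i j
    rw [Matrix.mul_apply, Matrix.of_apply]
    have hi := Det.win_expand K (by rw [hud i i.2]; exact i.2 : (u i).natDegree < K)
    have hj := Det.win_expand K (by rw [hvd j j.2]; exact j.2 : (v j).natDegree < K)
    have h1 : u i * v j * wpz b f = ∑ l : Fin K, (v j).coeff l • ∑ k : Fin K,
        (u i).coeff k • (X ^ ((k : ℕ) + (l : ℕ)) * wpz b f) := by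
      conv_lhs => rw [hi, hj]
      rw [Finset.sum_mul_sum, Finset.sum_comm, Finset.sum_mul]
      refine Finset.sum_congr rfl fun l _ => ?_
      rw [Finset.sum_mul, Finset.smul_sum]
      refine Finset.sum_congr rfl fun k _ => ?_
      rw [smul_mul_assoc, smul_mul_assoc, mul_smul_comm, smul_mul_assoc, ← pow_add, smul_comm]
    rw [h1, map_sum]
    refine Finset.sum_congr rfl fun l _ => ?_
    rw [map_smul, map_sum, Matrix.mul_apply, zsmul_eq_mul, Matrix.transpose_apply, hV,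
      Matrix.of_apply, mul_comm]
    congr 1
    refine Finset.sum_congr rfl fun k _ => ?_
    rw [map_smul, zsmul_eq_mul, hU, Matrix.of_apply, Matrix.of_apply]
  rw [hmat, Matrix.det_mul, Matrix.det_mul, Matrix.det_transpose, hU, hV, key u hu hud,
    key v hv hvd, one_mul, mul_one, NN]

/-- **Target for the prime 2** (to be proved in `R2/H120`). -/
def TwoBound (K0 b0 f0 E0 : ℕ) (c2 : ℝ) : Prop :=
  ∀ ε : ℝ, 0 < ε → ∀ᶠ n : ℕ in Filter.atTop, ∀ κ ≤ 2, ∀ p q : ℤ, 0 < q →
    NN (b0 * n) (f0 * n) (E0 * n) (K0 * n + κ) p q ≠ 0 →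
    Real.log ((padicNorm 2 (NN (b0 * n) (f0 * n) (E0 * n) (K0 * n + κ) p q) : ℚ) : ℝ) ≤
      (c2 + ε) * (n : ℝ) ^ 2

end Vale.Agent.P021.R2.H542
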