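import Vale.Agent.P021.R2.H542.WinConst

/-!
# The arithmetic cost for concrete shapes
-/

set_option autoImplicit false

namespace Vale.Agent.P021.R2.H542

open Vale.Agent.P021.R2.H636

lemma cwinE_48 : cwinE 48 42 82 56 (172 / 5) 36 (112 / 3) 41 42 43 = 69739 / 15 := by
  unfold cwinE cplain winF
  norm_num

lemma cwinE_24 : cwinE 24 20 42 28 (86 / 5) 18 (56 / 3) 20 21 (43 / 2) = 34877 / 30 := by
  unfold cwinE cplain winF
  norm_num

/-- the shape `(K0; b0, f0, E0) = (48; 42, 82, 56)` -/
theorem arithLower_48 {c2 : ℝ} (hT : TwoBound 48 42 82 56 c2) :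
    ArithLower 48 42 82 56 (69739 / 15 + c2) := by
  have h := arithLower_win 48 42 82 56 hT (by norm_num) (172 / 5) 36 (112 / 3) 41 42 43
    (by norm_num) (by norm_num) (by norm_num) (by norm_num) (by norm_num) (by norm_num)
    (by norm_num)
  rwa [cwinE_48] at h

/-- the shape `(K0; b0, f0, E0) = (24; 20, 42, 28)` -/
theorem arithLower_24 {c2 : ℝ} (hT : TwoBound 24 20 42 28 c2) :
    ArithLower 24 20 42 28 (34877 / 30 + c2) := by
  have h := arithLower_win 24 20 42 28 hT (by norm_num) (86 / 5) 18 (56 / 3) 20 21 (43 / 2)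
    (by norm_num) (by norm_num) (by norm_num) (by norm_num) (by norm_num) (by norm_num)
    (by norm_num)
  rwa [cwinE_24] at h

end Vale.Agent.P021.R2.H542
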