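import Vale.Agent.P021.R2.H542.NN

/-!
# `l`-adic norms of the moments of the `c = 2` family, `l` odd
-/

set_option autoImplicit false

open Polynomial Finset

namespace Vale.Agent.P021.R2.H542

open Vale.Agent.P021.R2.H636

/-! ### norms of natural numbers -/

theorem nrm_nat (l m : ℕ) [Fact l.Prime] (hm : m ≠ 0) :
    padicNorm l (m : ℚ) = ((l : ℚ) ^ (m.factorization l))⁻¹ := by
  have hm' : (m : ℚ) ≠ 0 := by exact_mod_cast hm
  rw [padicNorm.eq_zpow_of_nonzero hm', padicValRat.of_nat, Nat.factorization_def _ Fact.out,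
    zpow_neg, zpow_natCast]

theorem nrm_inv_le (l m : ℕ) [hl : Fact l.Prime] (hm : m ≠ 0) :
    (padicNorm l (m : ℚ))⁻¹ ≤ m := by
  rw [nrm_nat l m hm, inv_inv]
  have h := Nat.ordProj_le l hm
  exact_mod_cast h

theorem nrm_inv_le_l (l m : ℕ) [hl : Fact l.Prime] (hm : m ≠ 0) (h : m < l ^ 2) :
    (padicNorm l (m : ℚ))⁻¹ ≤ l := by
  rw [nrm_nat l m hm, inv_inv]
  have h1 := Nat.ordProj_le l hm
  have h2 : m.factorization l < 2 :=
    (Nat.pow_lt_pow_iff_right hl.out.one_lt).1 (h1.trans_lt h)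
  have h3 : l ^ (m.factorization l) ≤ l ^ 1 := Nat.pow_le_pow_right hl.out.pos (by omega)
  rw [pow_one] at h3
  exact_mod_cast h3

theorem nrm_one (l m : ℕ) [hl : Fact l.Prime] (h : ¬ l ∣ m) : padicNorm l (m : ℚ) = 1 :=
  val_norm_nat_eq_one h

theorem nrm_dvd (l m : ℕ) [hl : Fact l.Prime] (h : l ∣ m) : padicNorm l (m : ℚ) ≤ (l : ℚ)⁻¹ := by
  obtain ⟨k, rfl⟩ := h
  push_cast
  rw [padicNorm.mul, padicNorm.padicNorm_p_of_prime]
  have h1 : padicNorm l (k : ℚ) ≤ 1 := padicNorm.of_nat k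
  have h2 : (0 : ℚ) ≤ (l : ℚ)⁻¹ := by positivity
  exact mul_le_of_le_one_right h2 h1

theorem nrm_pow (l : ℕ) [hl : Fact l.Prime] (x : ℚ) (k : ℕ) :
    padicNorm l (x ^ k) = padicNorm l x ^ k := val_norm_pow l x k

theorem nrm_zpow (l : ℕ) [hl : Fact l.Prime] (x : ℚ) (k : ℤ) :
    padicNorm l (x ^ k) = padicNorm l x ^ k := by
  rcases k with n | n
  · rw [Int.ofNat_eq_natCast, zpow_natCast, zpow_natCast, nrm_pow]
  · rw [zpow_negSucc, zpow_negSucc, ← one_div, padicNorm.div, padicNorm.one, nrm_pow, one_div]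

theorem div_bound {x y B C : ℚ} (hy : 0 < y) (hB : 0 ≤ B) (h : x * y ≤ B) (hC : y⁻¹ ≤ C) :
    x ≤ B * C := by
  calc x = (x * y) * y⁻¹ := by field_simp
    _ ≤ B * y⁻¹ := mul_le_mul_of_nonneg_right h (inv_nonneg.2 hy.le)
    _ ≤ B * C := mul_le_mul_of_nonneg_left hC hB

theorem nrm_pos (l m : ℕ) [hl : Fact l.Prime] (hm : m ≠ 0) : 0 < padicNorm l (m : ℚ) :=
  lt_of_le_of_ne (padicNorm.nonneg _) (Ne.symm (padicNorm.nonzero (by exact_mod_cast hm)))

section odd

variable (l : ℕ) [hl : Fact l.Prime] (h2 : l ≠ 2)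

include h2

theorem nrm_two : padicNorm l (2 : ℚ) = 1 := by
  have h : ¬ l ∣ 2 := by
    intro h
    rcases (Nat.dvd_prime Nat.prime_two).1 h with h3 | h3
    · exact hl.out.one_lt.ne' h3
    · exact h2 h3
  exact_mod_cast nrm_one l 2 h

theorem nrm_four : padicNorm l (4 : ℚ) = 1 := by
  rw [show (4 : ℚ) = 2 * 2 by norm_num, padicNorm.mul, nrm_two l h2, one_mul]

theorem nrm_eight : padicNorm l (8 : ℚ) = 1 := by
  rw [show (8 : ℚ) = 2 * 4 by norm_num, padicNorm.mul, nrm_two l h2, nrm_four l h2, one_mul]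

theorem nrm_neg_four_pow (e : ℕ) : padicNorm l ((-4 : ℚ) ^ e) = 1 := by
  rw [nrm_pow, padicNorm.neg, nrm_four l h2, one_pow]

theorem nrm_neg_four_zpow (e : ℤ) : padicNorm l ((-4 : ℚ) ^ e) = 1 := by
  rw [nrm_zpow, padicNorm.neg, nrm_four l h2, one_zpow]

theorem bpos_step (e : ℕ) : padicNorm l (bpos (e + 1)) * padicNorm l ((e + 1 : ℕ) : ℚ) ≤
    max 1 (padicNorm l ((2 * e + 1 : ℕ) : ℚ) * padicNorm l (bpos e)) := by
  have h1 : bpos (e + 1) * ((e + 1 : ℕ) : ℚ) * 2 =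
      8 * (-4) ^ e - 8 * (((2 * e + 1 : ℕ) : ℚ) * bpos e) := by
    rw [bpos]
    have h3 : (2 * (e : ℚ) + 2) ≠ 0 := by positivity
    push_cast
    field_simp
  have h4 := congrArg (padicNorm l) h1
  rw [padicNorm.mul, padicNorm.mul, nrm_two l h2, mul_one] at h4
  rw [h4]
  refine padicNorm.sub.trans ?_
  rw [padicNorm.mul, padicNorm.mul, padicNorm.mul, nrm_eight l h2, nrm_neg_four_pow l h2, one_mul,
    one_mul]

theorem bneg_step (j : ℕ) : padicNorm l (bneg (j + 1)) * padicNorm l ((2 * j + 3 : ℕ) : ℚ) ≤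
    max 1 (padicNorm l ((j + 1 : ℕ) : ℚ) * padicNorm l (bneg j)) := by
  have h1 : bneg (j + 1) * ((2 * j + 3 : ℕ) : ℚ) * 8 * (-4) ^ (j + 2) =
      -(8 + (-4) ^ (j + 2) * (2 * (((j + 1 : ℕ) : ℚ) * bneg j))) := by
    rw [bneg]
    have h3 : (8 * (2 * (j : ℚ) + 3)) ≠ 0 := by positivity
    have h5 : (-1 / 4 : ℚ) ^ (j + 2) * (-4) ^ (j + 2) = 1 := by
      rw [← mul_pow]; norm_num
    push_cast
    rw [div_mul_eq_mul_div, div_mul_eq_mul_div, div_mul_eq_mul_div, div_eq_iff h3]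
    linear_combination (-8 * (2 * (j : ℚ) + 3) * 8) * h5
  have h4 := congrArg (padicNorm l) h1
  rw [padicNorm.mul, padicNorm.mul, padicNorm.mul, nrm_eight l h2, nrm_neg_four_pow l h2, mul_one,
    mul_one, padicNorm.neg] at h4
  rw [h4]
  refine padicNorm.nonarchimedean.trans ?_
  rw [padicNorm.mul, padicNorm.mul, padicNorm.mul, nrm_eight l h2, nrm_neg_four_pow l h2,
    nrm_two l h2, one_mul, one_mul]

theorem cq_norm (e : ℤ) : padicNorm l (cq e) = (padicNorm l (((2 * e + 1).natAbs : ℕ) : ℚ))⁻¹ := by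
  rw [cq, padicNorm.div, padicNorm.mul, nrm_four l h2, nrm_neg_four_zpow l h2, one_mul, one_div]
  congr 1
  rcases Int.natAbs_eq (2 * e + 1) with h3 | h3
  · have h4 := congrArg (Int.cast : ℤ → ℚ) h3
    rw [Int.cast_natCast, Int.cast_add, Int.cast_mul, Int.cast_ofNat, Int.cast_one] at h4
    rw [h4]
  · have h4 := congrArg (Int.cast : ℤ → ℚ) h3
    rw [Int.cast_neg, Int.cast_natCast, Int.cast_add, Int.cast_mul, Int.cast_ofNat,
      Int.cast_one] at h4
    rw [h4, padicNorm.neg]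

end odd

/-! ### exact valuations for `l` large compared with the square root of the range -/

theorem bpos_norm (h : ℕ) (hh : 1 ≤ h) (hl : (2 * h + 1).Prime) (e : ℕ) :
    e < (2 * h + 1) ^ 2 →
    padicNorm (2 * h + 1) (bpos e) ≤ ((2 * h + 1 : ℕ) : ℚ) ∧
    (h < e % (2 * h + 1) → padicNorm (2 * h + 1) (bpos e) ≤ 1) ∧
    (e < 2 * h + 1 → padicNorm (2 * h + 1) (bpos e) ≤ 1) := by
  have : Fact (2 * h + 1).Prime := ⟨hl⟩
  set l : ℕ := 2 * h + 1 with hldef
  have hne2 : l ≠ 2 := by omega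
  have hl1 : (1 : ℚ) ≤ l := by exact_mod_cast hl.one_lt.le
  have hl0 : (0 : ℚ) < l := by linarith
  induction e with
  | zero =>
    intro _
    rw [bpos, padicNorm.zero]
    exact ⟨hl0.le, fun _ => zero_le_one, fun _ => zero_le_one⟩
  | succ e ih =>
    intro he
    obtain ⟨ih1, ih2, ih3⟩ := ih (by omega)
    have hstep := bpos_step l hne2 e
    have hb0 : 0 ≤ padicNorm l (bpos e) := padicNorm.nonneg _
    have h21 : padicNorm l ((2 * e + 1 : ℕ) : ℚ) ≤ 1 := padicNorm.of_nat _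
    have h20 : 0 ≤ padicNorm l ((2 * e + 1 : ℕ) : ℚ) := padicNorm.nonneg _
    have hediv := Nat.div_add_mod e l
    have hrlt : e % l < l := Nat.mod_lt _ hl.pos
    set r := e % l with hr
    set s := e / l with hs
    -- division by `e+1`
    have hndvd : r + 1 < l → padicNorm l ((e + 1 : ℕ) : ℚ) = 1 := by
      intro h1
      apply nrm_one
      intro hd
      have h3 : (e + 1) % l = r + 1 := by
        rw [← hediv, add_assoc, Nat.mul_add_mod, Nat.mod_eq_of_lt h1]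
      rw [Nat.dvd_iff_mod_eq_zero] at hd
      omega
    have hmod : r + 1 < l → (e + 1) % l = r + 1 := by
      intro h1
      rw [← hediv, add_assoc, Nat.mul_add_mod, Nat.mod_eq_of_lt h1]
    by_cases c1 : r < h
    · have h1 := hndvd (by omega)
      rw [h1, mul_one] at hstep
      have h3 : padicNorm l ((2 * e + 1 : ℕ) : ℚ) * padicNorm l (bpos e) ≤ padicNorm l (bpos e) :=
        mul_le_of_le_one_left hb0 h21
      refine ⟨hstep.trans (max_le hl1 (h3.trans ih1)), fun h4 => ?_, fun h4 => ?_⟩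
      · rw [hmod (by omega)] at h4
        omega
      · exact hstep.trans (max_le le_rfl (h3.trans (ih3 (by omega))))
    by_cases c2 : r = h
    · have h1 := hndvd (by omega)
      rw [h1, mul_one] at hstep
      have hd : l ∣ 2 * e + 1 := by
        refine ⟨2 * s + 1, ?_⟩
        rw [← hediv, c2, hldef]
        ring
      have h3 := nrm_dvd l _ hd
      have h4 : padicNorm l ((2 * e + 1 : ℕ) : ℚ) * padicNorm l (bpos e) ≤ 1 := by
        calc _ ≤ (l : ℚ)⁻¹ * l := mul_le_mul h3 ih1 hb0 (by positivity)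
          _ = 1 := inv_mul_cancel₀ hl0.ne'
      have h5 := hstep.trans (max_le le_rfl h4)
      exact ⟨h5.trans hl1, fun _ => h5, fun _ => h5⟩
    by_cases c3 : r + 1 < l
    · have h1 := hndvd c3
      rw [h1, mul_one] at hstep
      have h3 : padicNorm l ((2 * e + 1 : ℕ) : ℚ) * padicNorm l (bpos e) ≤ 1 :=
        mul_le_one₀ h21 hb0 (ih2 (by omega))
      have h5 := hstep.trans (max_le le_rfl h3)
      exact ⟨h5.trans hl1, fun _ => h5, fun _ => h5⟩
    · have hr1 : r + 1 = l := by omega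
      have h3 : padicNorm l ((2 * e + 1 : ℕ) : ℚ) * padicNorm l (bpos e) ≤ 1 :=
        mul_le_one₀ h21 hb0 (ih2 (by omega))
      have h5 := hstep.trans (max_le le_rfl h3)
      have h6 := nrm_inv_le_l l (e + 1) (Nat.succ_ne_zero e) he
      have h7 : 0 < padicNorm l ((e + 1 : ℕ) : ℚ) := by
        refine lt_of_le_of_ne (padicNorm.nonneg _) (Ne.symm ?_)
        exact padicNorm.nonzero (by positivity)
      have h8 : padicNorm l (bpos (e + 1)) ≤ l := by
        have h9 := div_bound h7 zero_le_one h5 h6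
        rwa [one_mul] at h9
      refine ⟨h8, fun h9 => ?_, fun h9 => ?_⟩
      · have h10 : (e + 1) % l = 0 := by
          rw [← hediv, add_assoc, hr1, Nat.mul_add_mod, Nat.mod_self]
        omega
      · have : s = 0 := by
          rw [hs]; exact Nat.div_eq_of_lt (by omega)
        rw [this, mul_zero] at hediv
        omega

theorem bneg_norm (h : ℕ) (hh : 1 ≤ h) (hl : (2 * h + 1).Prime) (j : ℕ) :
    2 * j + 1 < (2 * h + 1) ^ 2 →
    padicNorm (2 * h + 1) (bneg j) ≤ ((2 * h + 1 : ℕ) : ℚ) ∧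
    (j % (2 * h + 1) < h → padicNorm (2 * h + 1) (bneg j) ≤ 1) := by
  have : Fact (2 * h + 1).Prime := ⟨hl⟩
  set l : ℕ := 2 * h + 1 with hldef
  have hne2 : l ≠ 2 := by omega
  have hl1 : (1 : ℚ) ≤ l := by exact_mod_cast hl.one_lt.le
  have hl0 : (0 : ℚ) < l := by linarith
  induction j with
  | zero =>
    intro _
    have h1 : padicNorm l (bneg 0) = 1 := by
      rw [bneg, padicNorm.div, padicNorm.one, nrm_four l hne2, div_one]
    rw [h1]
    exact ⟨hl1, fun _ => le_rfl⟩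
  | succ j ih =>
    intro hj
    obtain ⟨ih1, ih2⟩ := ih (by omega)
    have hstep := bneg_step l hne2 j
    have hb0 : 0 ≤ padicNorm l (bneg j) := padicNorm.nonneg _
    have h21 : padicNorm l ((j + 1 : ℕ) : ℚ) ≤ 1 := padicNorm.of_nat _
    have h20 : 0 ≤ padicNorm l ((j + 1 : ℕ) : ℚ) := padicNorm.nonneg _
    have h3pos : 0 < padicNorm l ((2 * j + 3 : ℕ) : ℚ) := nrm_pos l _ (by omega)
    have hmul : padicNorm l ((j + 1 : ℕ) : ℚ) * padicNorm l (bneg j) ≤ padicNorm l (bneg j) :=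
      mul_le_of_le_one_left hb0 h21
    have hjdiv := Nat.div_add_mod j l
    have hrlt : j % l < l := Nat.mod_lt _ hl.pos
    set r := j % l with hr
    set s := j / l with hs
    have hmod : r + 1 < l → (j + 1) % l = r + 1 := by
      intro h1
      rw [← hjdiv, add_assoc, Nat.mul_add_mod, Nat.mod_eq_of_lt h1]
    -- residue of `2 j + 3`
    have hndvd : 2 * r + 3 ≠ l → padicNorm l ((2 * j + 3 : ℕ) : ℚ) = 1 := by
      intro h1
      apply nrm_one
      intro hd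
      have h3 : 2 * j + 3 = l * (2 * s) + (2 * r + 3) := by
        rw [← hjdiv]; ring
      rw [h3, Nat.dvd_add_right (Dvd.intro _ rfl)] at hd
      obtain ⟨k, hk⟩ := hd
      have hk1 : k = 1 := by
        have hk0 : k ≠ 0 := by rintro rfl; omega
        have hk3 : k < 3 := by
          by_contra hc
          have : l * 3 ≤ l * k := Nat.mul_le_mul_left l (by omega)
          omega
        have hk2 : k ≠ 2 := by rintro rfl; omega
        omega
      rw [hk1, mul_one] at hk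
      exact h1 hk
    by_cases c1 : r + 1 < h
    · rw [hndvd (by omega), mul_one] at hstep
      have h5 := hstep.trans (max_le le_rfl (hmul.trans (ih2 (by omega))))
      exact ⟨h5.trans hl1, fun _ => h5⟩
    by_cases c2 : r + 1 = h
    · have h5 := hstep.trans (max_le le_rfl (hmul.trans (ih2 (by omega))))
      have h6 := nrm_inv_le_l l (2 * j + 3) (by omega) (by omega)
      have h9 := div_bound h3pos zero_le_one h5 h6
      rw [one_mul] at h9
      refine ⟨h9, fun h10 => ?_⟩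
      rw [hmod (by omega)] at h10
      omega
    by_cases c3 : r + 1 < l
    · rw [hndvd (by omega), mul_one] at hstep
      have h5 := hstep.trans (max_le hl1 (hmul.trans ih1))
      refine ⟨h5, fun h10 => ?_⟩
      rw [hmod c3] at h10
      omega
    · have hr1 : r + 1 = l := by omega
      rw [hndvd (by omega), mul_one] at hstep
      have hd : l ∣ j + 1 := by
        refine ⟨s + 1, ?_⟩
        rw [← hjdiv, mul_add, mul_one]
        omega
      have h3 := nrm_dvd l _ hd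
      have h4 : padicNorm l ((j + 1 : ℕ) : ℚ) * padicNorm l (bneg j) ≤ 1 := by
        calc _ ≤ (l : ℚ)⁻¹ * l := mul_le_mul h3 ih1 hb0 (by positivity)
          _ = 1 := inv_mul_cancel₀ hl0.ne'
      have h5 := hstep.trans (max_le le_rfl h4)
      exact ⟨h5.trans hl1, fun _ => h5⟩

/-! ### crude bounds -/

theorem nrm_centralBinom_inv (l m : ℕ) [hl : Fact l.Prime] (hm : m ≠ 0) :
    (padicNorm l (Nat.centralBinom m : ℚ))⁻¹ ≤ ((2 * m : ℕ) : ℚ) := by
  rw [nrm_nat l _ (Nat.centralBinom_ne_zero m), inv_inv]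
  have h : l ^ ((2 * m).choose m).factorization l ≤ 2 * m :=
    Nat.pow_factorization_choose_le (by omega)
  exact_mod_cast h

theorem apos_eq (e : ℕ) : apos e = (-2) ^ e * (Nat.centralBinom e : ℚ) := by
  induction e with
  | zero => simp [apos]
  | succ e ih =>
    have h := Nat.succ_mul_centralBinom_succ e
    have h' : ((e : ℚ) + 1) * (Nat.centralBinom (e + 1) : ℚ) =
        2 * (2 * e + 1) * Nat.centralBinom e := by exact_mod_cast h
    have h3 : (2 * (e : ℚ) + 2) ≠ 0 := by positivity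
    rw [apos, ih, div_eq_iff h3, pow_succ]
    linear_combination (4 * (-2 : ℚ) ^ e) * h'

theorem apos_norm (l : ℕ) [hl : Fact l.Prime] (e : ℕ) : padicNorm l (apos e) ≤ 1 := by
  have h : apos e = (((-2) ^ e * (Nat.centralBinom e : ℤ) : ℤ) : ℚ) := by
    rw [apos_eq]; push_cast; rfl
  rw [h]
  exact padicNorm.of_int _

/-- the sum in the closed form of `bpos` -/
def Sb (e : ℕ) : ℚ := ∑ j ∈ range e, (2 : ℚ) ^ (j + 1) / (((j + 1 : ℕ) : ℚ) *
  (Nat.centralBinom (j + 1) : ℚ))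

theorem bpos_eq (e : ℕ) : bpos e = -(apos e * Sb e) := by
  induction e with
  | zero => simp [bpos, Sb]
  | succ e ih =>
    have h0 : (Nat.centralBinom (e + 1) : ℚ) ≠ 0 := by
      exact_mod_cast Nat.centralBinom_ne_zero _
    have h3 : (2 * (e : ℚ) + 2) ≠ 0 := by positivity
    have h4 : (e : ℚ) + 1 ≠ 0 := by positivity
    have h5 : (2 * (e : ℚ) + 2) * apos (e + 1) = -8 * (2 * (e : ℚ) + 1) * apos e := by
      rw [apos]; field_simp
    have h6 : Sb (e + 1) = Sb e + (2 : ℚ) ^ (e + 1) / (((e + 1 : ℕ) : ℚ) *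
        (Nat.centralBinom (e + 1) : ℚ)) := by rw [Sb, sum_range_succ, ← Sb]
    have h7 : (2 : ℚ) ^ (e + 1) / (((e + 1 : ℕ) : ℚ) * (Nat.centralBinom (e + 1) : ℚ)) *
        ((2 * (e : ℚ) + 2) * apos (e + 1)) = -8 * (-4) ^ e := by
      rw [apos_eq]
      push_cast
      field_simp
      rw [show (-4 : ℚ) ^ e = 2 ^ e * (-2) ^ e by rw [← mul_pow]; norm_num]
      ring
    rw [bpos, div_eq_iff h3, h6, ih]
    linear_combination Sb e * h5 + h7

theorem Sb_norm (l : ℕ) [hl : Fact l.Prime] (h2 : l ≠ 2) (e : ℕ) :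
    padicNorm l (Sb e) ≤ ((2 * e ^ 2 : ℕ) : ℚ) := by
  rw [Sb]
  have h := val_sum_le l 1 (range e) (fun j => (2 : ℚ) ^ (j + 1) / (((j + 1 : ℕ) : ℚ) *
    (Nat.centralBinom (j + 1) : ℚ))) (b := ((2 * e ^ 2 : ℕ) : ℚ)) (by positivity)
    one_ne_zero ?_
  · rwa [pow_one] at h
  · intro j hj
    rw [mem_range] at hj
    rw [pow_one, padicNorm.div, nrm_pow, nrm_two l h2, one_pow, padicNorm.mul, one_div, mul_inv]
    have h1 := nrm_inv_le l (j + 1) (by omega)
    have h3 := nrm_centralBinom_inv l (j + 1) (by omega)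
    have h4 : (0 : ℚ) ≤ (padicNorm l (Nat.centralBinom (j + 1) : ℚ))⁻¹ :=
      inv_nonneg.2 (padicNorm.nonneg _)
    calc _ ≤ ((j + 1 : ℕ) : ℚ) * ((2 * (j + 1) : ℕ) : ℚ) := mul_le_mul h1 h3 h4 (by positivity)
      _ = (((j + 1) * (2 * (j + 1)) : ℕ) : ℚ) := by push_cast; ring
      _ ≤ _ := by
        have h5 : (j + 1) * (2 * (j + 1)) ≤ 2 * e ^ 2 := by
          have h6 : j + 1 ≤ e := hj
          calc (j + 1) * (2 * (j + 1)) ≤ e * (2 * e) := Nat.mul_le_mul h6 (by omega)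
            _ = 2 * e ^ 2 := by ring
        exact_mod_cast h5

theorem bpos_crude (l : ℕ) [hl : Fact l.Prime] (h2 : l ≠ 2) (e : ℕ) :
    padicNorm l (bpos e) ≤ ((2 * e + 1 : ℕ) : ℚ) ^ 2 := by
  rw [bpos_eq, padicNorm.neg, padicNorm.mul]
  have h3 := Sb_norm l h2 e
  have h4 : (2 * e ^ 2 : ℕ) ≤ (2 * e + 1) ^ 2 := by
    have : (2 * e + 1) ^ 2 = 2 * e ^ 2 + (2 * e ^ 2 + 4 * e + 1) := by ring
    omega
  calc _ ≤ 1 * padicNorm l (Sb e) :=
        mul_le_mul_of_nonneg_right (apos_norm l e) (padicNorm.nonneg _)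
    _ ≤ _ := by
      rw [one_mul]
      exact h3.trans (by exact_mod_cast h4)

theorem bneg_U (l : ℕ) [hl : Fact l.Prime] (h2 : l ≠ 2) (j : ℕ) :
    padicNorm l (((2 * j + 1 : ℕ) : ℚ) * (Nat.centralBinom j : ℚ) * bneg j) ≤ 1 := by
  induction j with
  | zero =>
    rw [bneg, Nat.centralBinom_zero, mul_zero, zero_add, Nat.cast_one, one_mul, one_mul,
      padicNorm.div, padicNorm.one, nrm_four l h2, div_one]
  | succ j ih =>
    have h := Nat.succ_mul_centralBinom_succ j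
    have h' : ((j : ℚ) + 1) * (Nat.centralBinom (j + 1) : ℚ) =
        2 * (2 * j + 1) * Nat.centralBinom j := by exact_mod_cast h
    have h3 : (8 * (2 * (j : ℚ) + 3)) ≠ 0 := by positivity
    have h5 : (-4 : ℚ) ^ (j + 2) * (-1 / 4 : ℚ) ^ (j + 2) = 1 := by
      rw [← mul_pow]; norm_num
    have h6 : 2 * (-4 : ℚ) ^ (j + 2) * (((2 * (j + 1) + 1 : ℕ) : ℚ) *
        (Nat.centralBinom (j + 1) : ℚ) * bneg (j + 1)) =
        -(2 * (Nat.centralBinom (j + 1) : ℚ) + (-4 : ℚ) ^ (j + 2) *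
          (((2 * j + 1 : ℕ) : ℚ) * (Nat.centralBinom j : ℚ) * bneg j)) := by
      have h7 : bneg (j + 1) * (8 * (2 * (j : ℚ) + 3)) =
          -(8 * (-1 / 4) ^ (j + 2) + 2 * ((j : ℚ) + 1) * bneg j) := by
        rw [bneg, div_mul_cancel₀ _ h3]
      push_cast
      linear_combination ((-4 : ℚ) ^ (j + 2) * Nat.centralBinom (j + 1) / 4) * h7 -
        (2 * (Nat.centralBinom (j + 1) : ℚ)) * h5 - ((-4 : ℚ) ^ (j + 2) * bneg j / 2) * h'
    have h8 := congrArg (padicNorm l) h6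
    rw [padicNorm.mul, padicNorm.mul, nrm_two l h2, nrm_neg_four_pow l h2, one_mul, one_mul,
      padicNorm.neg] at h8
    rw [h8]
    refine padicNorm.nonarchimedean.trans (max_le ?_ ?_)
    · rw [padicNorm.mul, nrm_two l h2, one_mul]
      exact padicNorm.of_nat _
    · rw [padicNorm.mul, nrm_neg_four_pow l h2, one_mul]
      exact ih

theorem bneg_crude (l : ℕ) [hl : Fact l.Prime] (h2 : l ≠ 2) (j : ℕ) :
    padicNorm l (bneg j) ≤ ((2 * j + 1 : ℕ) : ℚ) ^ 2 := by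
  have h3 := bneg_U l h2 j
  rw [padicNorm.mul, padicNorm.mul, mul_comm] at h3
  have h4 := nrm_pos l (2 * j + 1) (by omega)
  have h5 := nrm_pos l (Nat.centralBinom j) (Nat.centralBinom_ne_zero j)
  have h6 := nrm_inv_le l (2 * j + 1) (by omega)
  have h7 : (padicNorm l (Nat.centralBinom j : ℚ))⁻¹ ≤ ((2 * j + 1 : ℕ) : ℚ) := by
    rcases Nat.eq_zero_or_pos j with h8 | h8
    · subst h8
      rw [Nat.centralBinom_zero, Nat.cast_one, padicNorm.one, inv_one]
    · refine (nrm_centralBinom_inv l j (by omega)).trans ?_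
      exact_mod_cast Nat.le_succ _
  have h9 := div_bound (mul_pos h4 h5) zero_le_one h3 (C := ((2 * j + 1 : ℕ) : ℚ) ^ 2) (by
    rw [mul_inv, pow_two]
    exact mul_le_mul h6 h7 (inv_nonneg.2 h5.le) (by positivity))
  rwa [one_mul] at h9

/-! ### uniform statements for integer exponents -/

theorem aq_norm (l : ℕ) [hl : Fact l.Prime] (e : ℤ) : padicNorm l (aq e) ≤ 1 := by
  rcases e with e | j
  · exact apos_norm l e
  · rw [aq, padicNorm.zero]
    exact zero_le_one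

theorem bq_crude (l : ℕ) [hl : Fact l.Prime] (h2 : l ≠ 2) (e : ℤ) :
    padicNorm l (bq e) ≤ (((2 * e + 1).natAbs : ℕ) : ℚ) ^ 2 := by
  rcases e with e | j
  · have h : (2 * (Int.ofNat e) + 1).natAbs = 2 * e + 1 := by
      rw [Int.ofNat_eq_natCast]
      omega
    rw [h]
    exact bpos_crude l h2 e
  · have h : (2 * (Int.negSucc j) + 1).natAbs = 2 * j + 1 := by omega
    rw [h]
    exact bneg_crude l h2 j

theorem cq_crude (l : ℕ) [hl : Fact l.Prime] (h2 : l ≠ 2) (e : ℤ) :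
    padicNorm l (cq e) ≤ (((2 * e + 1).natAbs : ℕ) : ℚ) ^ 2 := by
  rw [cq_norm l h2]
  have h3 : (2 * e + 1).natAbs ≠ 0 := by omega
  have h4 := nrm_inv_le l _ h3
  have h5 : (1 : ℚ) ≤ (((2 * e + 1).natAbs : ℕ) : ℚ) := by
    exact_mod_cast Nat.one_le_iff_ne_zero.2 h3
  exact h4.trans (by rw [pow_two]; exact le_mul_of_one_le_left (by positivity) h5)

theorem cq_all (l : ℕ) [hl : Fact l.Prime] (h2 : l ≠ 2) (e : ℤ)
    (he : (2 * e + 1).natAbs < l ^ 2) : padicNorm l (cq e) ≤ l := by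
  rw [cq_norm l h2]
  exact nrm_inv_le_l l _ (by omega) he

theorem cq_good (l : ℕ) [hl : Fact l.Prime] (h2 : l ≠ 2) (e : ℤ)
    (he : (2 * e + 1).natAbs < l) : padicNorm l (cq e) ≤ 1 := by
  rw [cq_norm l h2, nrm_one, inv_one]
  intro hd
  have := Nat.le_of_dvd (by omega) hd
  omega

theorem bq_all (l : ℕ) [hl : Fact l.Prime] (h2 : l ≠ 2) (e : ℤ)
    (he : (2 * e + 1).natAbs < l ^ 2) : padicNorm l (bq e) ≤ l := by
  obtain ⟨h, hh⟩ := hl.out.odd_of_ne_two h2
  subst hh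
  have hp := hl.out
  have h1 : 1 ≤ h := by
    have := hp.two_le
    omega
  rcases e with e | j
  · rw [Int.ofNat_eq_natCast] at he
    exact (bpos_norm h h1 hp e (by omega)).1
  · exact (bneg_norm h h1 hp j (by omega)).1

theorem bq_good (l : ℕ) [hl : Fact l.Prime] (h2 : l ≠ 2) (e : ℤ)
    (he1 : -(2 * e + 1) < l) (he2 : e < l) : padicNorm l (bq e) ≤ 1 := by
  obtain ⟨h, hh⟩ := hl.out.odd_of_ne_two h2
  subst hh
  have hp := hl.out
  have h1 : 1 ≤ h := by
    have := hp.two_le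
    omega
  have h3 : 2 * h + 1 ≤ (2 * h + 1) ^ 2 := Nat.le_self_pow two_ne_zero _
  rcases e with e | j
  · have h4 : e < 2 * h + 1 := by
      rw [Int.ofNat_eq_natCast] at he2
      exact_mod_cast he2
    exact (bpos_norm h h1 hp e (by omega)).2.2 h4
  · have h4 : 2 * j + 1 < 2 * h + 1 := by omega
    refine (bneg_norm h h1 hp j (by omega)).2 ?_
    rw [Nat.mod_eq_of_lt (by omega)]
    omega

/-! ### the moments -/

theorem nrm_coef (l : ℕ) [hl : Fact l.Prime] (a b c : ℕ) :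
    padicNorm l ((a : ℚ) * (8 : ℚ) ^ b * (c : ℚ)) ≤ 1 := by
  have h : ((a : ℚ) * (8 : ℚ) ^ b * (c : ℚ)) = ((a * 8 ^ b * c : ℕ) : ℚ) := by push_cast; ring
  rw [h]
  exact padicNorm.of_nat _

theorem sum_coef_norm (l : ℕ) [hl : Fact l.Prime] (m : ℕ) (g : ℤ → ℚ) (e : ℤ) (B : ℚ)
    (hB : 0 ≤ B) (h : ∀ i ≤ m, padicNorm l (g (e + i)) ≤ B) :
    padicNorm l (∑ i ∈ range (m + 1), (m.choose i : ℚ) * 8 ^ (m - i) * g (e + i)) ≤ B := by
  have h1 := val_sum_le l 1 (range (m + 1))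
    (fun i => (m.choose i : ℚ) * 8 ^ (m - i) * g (e + i)) hB one_ne_zero ?_
  · rwa [pow_one] at h1
  · intro i hi
    rw [mem_range] at hi
    rw [pow_one, padicNorm.mul]
    have h2 := nrm_coef l (m.choose i) (m - i) 1
    rw [Nat.cast_one, mul_one] at h2
    calc _ ≤ 1 * B := mul_le_mul h2 (h i (by omega)) (padicNorm.nonneg _) zero_le_one
      _ = B := one_mul B

theorem mA_norm (l : ℕ) [hl : Fact l.Prime] (k : ℕ) (e : ℤ) : padicNorm l (mA k e) ≤ 1 := by
  rw [mA]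
  split_ifs
  · exact sum_coef_norm l (k / 2) aq e 1 zero_le_one fun i _ => aq_norm l _
  · rw [padicNorm.zero]
    exact zero_le_one

theorem mB_norm (l : ℕ) [hl : Fact l.Prime] (k : ℕ) (e : ℤ) (B : ℚ) (hB : 0 ≤ B)
    (h1 : Even k → ∀ i ≤ k / 2, padicNorm l (bq (e + i)) ≤ B)
    (h2 : ¬ Even k → ∀ i ≤ k / 2, padicNorm l (cq (e + i)) ≤ B) : padicNorm l (mB k e) ≤ B := by
  rw [mB]
  split_ifs with hk
  · exact sum_coef_norm l (k / 2) bq e B hB (h1 hk)
  · exact sum_coef_norm l (k / 2) cq e B hB (h2 hk)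

theorem cK_norm (l : ℕ) [hl : Fact l.Prime] (p q : ℤ) (E k : ℕ) (B : ℚ) (hB : 1 ≤ B)
    (h1 : Even k → ∀ i ≤ k / 2, padicNorm l (bq (-(E : ℤ) + i)) ≤ B)
    (h2 : ¬ Even k → ∀ i ≤ k / 2, padicNorm l (cq (-(E : ℤ) + i)) ≤ B) :
    padicNorm l (cK p q E k) ≤ B := by
  rw [cK_nat]
  refine padicNorm.nonarchimedean.trans (max_le ?_ ?_)
  · rw [padicNorm.mul]
    exact (mul_le_one₀ (padicNorm.of_int p) (padicNorm.nonneg _) (mA_norm l k _)).trans hB
  · have h3 : (2 * (q : ℚ)) = ((2 * q : ℤ) : ℚ) := by push_cast; rfl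
    rw [h3, padicNorm.mul]
    calc _ ≤ 1 * B := mul_le_mul (padicNorm.of_int _)
          (mB_norm l k _ B (zero_le_one.trans hB) h1 h2) (padicNorm.nonneg _) zero_le_one
      _ = B := one_mul B

/-- no pole -/
theorem cK_good (l : ℕ) [hl : Fact l.Prime] (h2 : l ≠ 2) (p q : ℤ) (E k : ℕ)
    (hE : 2 * E ≤ l) (hk : k < 2 * E + l) : padicNorm l (cK p q E k) ≤ 1 := by
  refine cK_norm l p q E k 1 le_rfl (fun hk2 i hi => ?_) (fun hk2 i hi => ?_)
  · apply bq_good l h2 <;> omega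
  · have h3 : k % 2 = 1 := by
      rw [Nat.even_iff] at hk2
      omega
    apply cq_good l h2
    omega

/-- simple poles -/
theorem cK_all (l : ℕ) [hl : Fact l.Prime] (h2 : l ≠ 2) (p q : ℤ) (E k : ℕ)
    (hE : 2 * E + k + 1 < l ^ 2) : padicNorm l (cK p q E k) ≤ l := by
  have hl1 : (1 : ℚ) ≤ l := by exact_mod_cast hl.out.one_lt.le
  refine cK_norm l p q E k l hl1 (fun hk2 i hi => ?_) (fun hk2 i hi => ?_)
  · apply bq_all l h2
    omega
  · apply cq_all l h2
    omega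

/-- crude bound -/
theorem cK_crude (l : ℕ) [hl : Fact l.Prime] (h2 : l ≠ 2) (p q : ℤ) (E k R : ℕ)
    (hE : 2 * E + k + 1 ≤ R) : padicNorm l (cK p q E k) ≤ (R : ℚ) ^ 2 := by
  have key : ∀ i : ℕ, i ≤ k / 2 → (((2 * (-(E : ℤ) + i) + 1).natAbs : ℕ) : ℚ) ^ 2 ≤ (R : ℚ) ^ 2 := by
    intro i hi
    have h3 : (2 * (-(E : ℤ) + i) + 1).natAbs ≤ R := by omega
    have h4 : (((2 * (-(E : ℤ) + i) + 1).natAbs : ℕ) : ℚ) ≤ R := by exact_mod_cast h3
    exact pow_le_pow_left₀ (Nat.cast_nonneg _) h4 2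
  have hR : (1 : ℚ) ≤ (R : ℚ) ^ 2 := by
    have : 1 ≤ R := by omega
    exact one_le_pow₀ (by exact_mod_cast this)
  refine cK_norm l p q E k _ hR (fun hk2 i hi => ?_) (fun hk2 i hi => ?_)
  · exact (bq_crude l h2 _).trans (key i hi)
  · exact (cq_crude l h2 _).trans (key i hi)

end Vale.Agent.P021.R2.H542
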