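import Vale.Agent.P021.R2.H542.Const

/-!
# Windows: savings at the primes in an interval

For `l = 2 h + 1` prime, `T(D) = LE E' (C ^ l D)` with `C = (X-2)^z (X-3)^x` and
`2 E' + 1 = (2 c + 1) l`.
-/

set_option autoImplicit false

open Polynomial Finset

namespace Vale.Agent.P021.R2.H542

open Vale.Agent.P021.R2.H636

/-- integration by parts over `ℚ` -/
theorem LE_ftc (p q : ℤ) (hq : 0 < q) (E : ℕ) (G : ℤ[X]) (hG : G.eval 2 = 0) :
    LE p q E (derivative G * Qz + C (1 - 2 * (E : ℤ)) * X * G) = 0 := by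
  have h1 := LE_real p q hq E (derivative G * Qz + C (1 - 2 * (E : ℤ)) * X * G)
  have h2 : (derivative G * Qz + C (1 - 2 * (E : ℤ)) * X * G).map (Int.castRingHom ℝ) =
      derivative (G.map (Int.castRingHom ℝ)) * (X ^ 2 - C 8) + C (1 - 2 * (E : ℝ)) * X *
        (G.map (Int.castRingHom ℝ)) := by
    rw [Polynomial.map_add, Polynomial.map_mul, Polynomial.map_mul, Polynomial.map_mul, Qz_map,
      derivative_map, map_C, map_X]
    congr 4
    simp
  have h3 : (G.map (Int.castRingHom ℝ)).eval 2 = 0 := by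
    have h4 : (2 : ℝ) = (Int.castRingHom ℝ) 2 := by simp
    rw [h4, eval_map_apply, hG, map_zero]
  rw [h2, Lam_ftc, h3, mul_zero, mul_zero] at h1
  exact_mod_cast h1

/-- the `l`-th power weight -/
noncomputable def CZ (z x l : ℕ) : ℤ[X] := (X - C 2) ^ (z * l) * (X - C 3) ^ (x * l)

/-- the functional of the window -/
noncomputable def TT (p q : ℤ) (z x c h : ℕ) : ℤ[X] →ₗ[ℤ] ℚ :=
  (LE p q (2 * c * h + c + h)).comp (LinearMap.mulLeft ℤ (CZ z x (2 * h + 1)))

theorem TT_apply (p q : ℤ) (z x c h : ℕ) (D : ℤ[X]) :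
    TT p q z x c h D = LE p q (2 * c * h + c + h) (CZ z x (2 * h + 1) * D) := rfl

theorem CZ_natDegree_le (z x l : ℕ) : (CZ z x l).natDegree ≤ z * l + x * l :=
  wpz_natDegree_le (z * l) (x * l)

theorem CZ_eval (z x l : ℕ) (hz : 1 ≤ z) (hl : 1 ≤ l) (D : ℤ[X]) : (CZ z x l * D).eval 2 = 0 := by
  have h1 : z * l ≠ 0 := Nat.mul_ne_zero (by omega) (by omega)
  rw [CZ, eval_mul, eval_mul, eval_pow, eval_sub, eval_X, eval_C, sub_self, zero_pow h1, zero_mul,
    zero_mul]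

/-- the rational number in the integration by parts -/
noncomputable def SS (p q : ℤ) (z x c h k : ℕ) : ℚ :=
  (2 * c + 1 : ℕ) * LE p q (2 * c * h + c + h + 1) (CZ z x (2 * h + 1) * X ^ (k + 2)) -
  (z : ℚ) * LE p q (2 * c * h + c + h) (wpz (z * (2 * h + 1) - 1) (x * (2 * h + 1)) * X ^ (k + 1)) -
  (x : ℚ) * LE p q (2 * c * h + c + h) (wpz (z * (2 * h + 1)) (x * (2 * h + 1) - 1) * X ^ (k + 1))

theorem derivative_wpz (a b k : ℕ) : derivative (wpz a b * X ^ (k + 1)) =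
    ((a : ℤ[X]) * (wpz (a - 1) b * X ^ (k + 1)) + (b : ℤ[X]) * (wpz a (b - 1) * X ^ (k + 1))) +
      ((k + 1 : ℕ) : ℤ[X]) * (wpz a b * X ^ k) := by
  rw [wpz, wpz, wpz, derivative_mul, derivative_mul, derivative_X_sub_C_pow,
    derivative_X_sub_C_pow, derivative_X_pow, Nat.add_sub_cancel]
  simp only [map_natCast]
  ring

theorem TT_rec (p q : ℤ) (hq : 0 < q) (z x c h k : ℕ) (hz : 1 ≤ z) :
    ((k + 1 : ℕ) : ℚ) * TT p q z x c h (X ^ k) = ((2 * h + 1 : ℕ) : ℚ) * SS p q z x c h k := by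
  have h1 := LE_ftc p q hq (2 * c * h + c + h + 1) (CZ z x (2 * h + 1) * X ^ (k + 1))
    (CZ_eval z x _ hz (by omega) _)
  have h2 : CZ z x (2 * h + 1) = wpz (z * (2 * h + 1)) (x * (2 * h + 1)) := rfl
  have h3 : (C (1 - 2 * (((2 * c * h + c + h + 1 : ℕ) : ℤ))) : ℤ[X]) =
      -((((2 * c + 1) * (2 * h + 1) : ℕ) : ℤ[X])) := by
    have h4 : (1 - 2 * (((2 * c * h + c + h + 1 : ℕ) : ℤ))) =
      -((((2 * c + 1) * (2 * h + 1) : ℕ) : ℤ)) := by push_cast; ring
    rw [h4, C_neg, ← Polynomial.C_eq_natCast]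
  rw [h2, derivative_wpz, h3] at h1
  have h5 : (((((z * (2 * h + 1) : ℕ) : ℤ[X]) * (wpz (z * (2 * h + 1) - 1) (x * (2 * h + 1)) *
      X ^ (k + 1)) + ((x * (2 * h + 1) : ℕ) : ℤ[X]) * (wpz (z * (2 * h + 1))
      (x * (2 * h + 1) - 1) * X ^ (k + 1))) +
      ((k + 1 : ℕ) : ℤ[X]) * (wpz (z * (2 * h + 1)) (x * (2 * h + 1)) * X ^ k)) * Qz +
      -((((2 * c + 1) * (2 * h + 1) : ℕ) : ℤ[X])) * X *
      (wpz (z * (2 * h + 1)) (x * (2 * h + 1)) * X ^ (k + 1))) =
      (((z * (2 * h + 1) : ℕ) : ℤ)) • (Qz * (wpz (z * (2 * h + 1) - 1) (x * (2 * h + 1)) *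
      X ^ (k + 1))) + (((x * (2 * h + 1) : ℕ) : ℤ)) • (Qz * (wpz (z * (2 * h + 1))
      (x * (2 * h + 1) - 1) * X ^ (k + 1))) +
      (((k + 1 : ℕ) : ℤ)) • (Qz * (wpz (z * (2 * h + 1)) (x * (2 * h + 1)) * X ^ k)) +
      (-((((2 * c + 1) * (2 * h + 1) : ℕ) : ℤ))) •
      (wpz (z * (2 * h + 1)) (x * (2 * h + 1)) * X ^ (k + 2)) := by
    rw [zsmul_eq_mul, zsmul_eq_mul, zsmul_eq_mul, zsmul_eq_mul]
    push_cast
    ring
  rw [h5, map_add, map_add, map_add, map_smul, map_smul, map_smul, map_smul, LE_mul_Q p q hq,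
    LE_mul_Q p q hq, LE_mul_Q p q hq, zsmul_eq_mul, zsmul_eq_mul, zsmul_eq_mul, zsmul_eq_mul] at h1
  rw [TT_apply, h2, SS, h2]
  push_cast at h1 ⊢
  linear_combination h1

theorem wpzX_natDegree_le (a b k : ℕ) : (wpz a b * X ^ k).natDegree ≤ a + b + k :=
  natDegree_mul_le_of_le (wpz_natDegree_le a b) (natDegree_X_pow_le k)

/-- norm bound of `LE` in the range of simple poles -/
theorem LE_all (l : ℕ) [Fact l.Prime] (h2 : l ≠ 2) (p q : ℤ) (E : ℕ) (F : ℤ[X]) (N : ℕ)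
    (hF : F.natDegree ≤ N) (hN : 2 * E + N + 1 < l ^ 2) : padicNorm l (LE p q E F) ≤ l :=
  LE_norm_le l p q E F _ (Nat.cast_nonneg _) fun k hk => cK_all l h2 p q E k (by omega)

theorem nat_mul_norm (l : ℕ) [Fact l.Prime] (m : ℕ) {y B : ℚ} (hy : padicNorm l y ≤ B) :
    padicNorm l ((m : ℚ) * y) ≤ B := by
  rw [padicNorm.mul]
  exact (mul_le_of_le_one_left (padicNorm.nonneg _) (padicNorm.of_nat m)).trans hy

theorem int_mul_norm (l : ℕ) [Fact l.Prime] (m : ℤ) {y B : ℚ} (hy : padicNorm l y ≤ B) :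
    padicNorm l ((m : ℚ) * y) ≤ B := by
  rw [padicNorm.mul]
  exact (mul_le_of_le_one_left (padicNorm.nonneg _) (padicNorm.of_int m)).trans hy

theorem SS_norm (p q : ℤ) (z x c h k : ℕ) (hl : (2 * h + 1).Prime) (hh : 1 ≤ h)
    (hb : 2 * (2 * c * h + c + h) + (z * (2 * h + 1) + x * (2 * h + 1)) + 3 * (2 * h + 1) + 5 <
      (2 * h + 1) ^ 2) (hk : k + 2 ≤ 3 * (2 * h + 1)) :
    padicNorm (2 * h + 1) (SS p q z x c h k) ≤ ((2 * h + 1 : ℕ) : ℚ) := by
  have : Fact (2 * h + 1).Prime := ⟨hl⟩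
  have h2 : 2 * h + 1 ≠ 2 := by omega
  have hCZ : CZ z x (2 * h + 1) = wpz (z * (2 * h + 1)) (x * (2 * h + 1)) := rfl
  rw [SS, hCZ]
  refine padicNorm.sub.trans (max_le (padicNorm.sub.trans (max_le ?_ ?_)) ?_)
  · apply nat_mul_norm
    exact LE_all _ h2 p q _ _ _ (wpzX_natDegree_le _ _ _) (by omega)
  · apply nat_mul_norm
    exact LE_all _ h2 p q _ _ _ (wpzX_natDegree_le _ _ _) (by omega)
  · apply nat_mul_norm
    exact LE_all _ h2 p q _ _ _ (wpzX_natDegree_le _ _ _) (by omega)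

theorem TT_all (p q : ℤ) (z x c h k : ℕ) (hl : (2 * h + 1).Prime) (hh : 1 ≤ h)
    (hb : 2 * (2 * c * h + c + h) + (z * (2 * h + 1) + x * (2 * h + 1)) + 3 * (2 * h + 1) + 5 <
      (2 * h + 1) ^ 2) (hk : k + 2 ≤ 3 * (2 * h + 1)) :
    padicNorm (2 * h + 1) (TT p q z x c h (X ^ k)) ≤ ((2 * h + 1 : ℕ) : ℚ) := by
  have : Fact (2 * h + 1).Prime := ⟨hl⟩
  have h2 : 2 * h + 1 ≠ 2 := by omega
  rw [TT_apply]
  exact LE_all _ h2 p q _ _ _ (wpzX_natDegree_le _ _ _) (by omega)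

theorem TT_good (p q : ℤ) (hq : 0 < q) (z x c h k : ℕ) (hz : 1 ≤ z) (hl : (2 * h + 1).Prime)
    (hh : 1 ≤ h)
    (hb : 2 * (2 * c * h + c + h) + (z * (2 * h + 1) + x * (2 * h + 1)) + 3 * (2 * h + 1) + 5 <
      (2 * h + 1) ^ 2) (hk : k + 2 ≤ 3 * (2 * h + 1)) (hd : ¬ (2 * h + 1) ∣ k + 1) :
    padicNorm (2 * h + 1) (TT p q z x c h (X ^ k)) ≤ 1 := by
  have : Fact (2 * h + 1).Prime := ⟨hl⟩
  have h3 := congrArg (padicNorm (2 * h + 1)) (TT_rec p q hq z x c h k hz)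
  rw [padicNorm.mul, padicNorm.mul, nrm_one _ _ hd, one_mul, padicNorm.padicNorm_p_of_prime] at h3
  rw [h3]
  have hl0 : (0 : ℚ) < ((2 * h + 1 : ℕ) : ℚ) := by positivity
  rw [inv_mul_le_iff₀ hl0, mul_one]
  exact SS_norm p q z x c h k hl hh hb hk

theorem TT_sum (p q : ℤ) (z x c h : ℕ) (D : ℤ[X]) {N : ℕ} (hN : D.natDegree < N) :
    TT p q z x c h D = ∑ k ∈ range N, (D.coeff k : ℚ) * TT p q z x c h (X ^ k) := by
  conv_lhs => rw [D.as_sum_range' N hN, map_sum]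
  refine sum_congr rfl fun k _ => ?_
  rw [← smul_X_eq_monomial, map_smul, zsmul_eq_mul]

theorem TT_norm_le (p q : ℤ) (z x c h : ℕ) (hl : (2 * h + 1).Prime) (D : ℤ[X]) {N : ℕ} (B : ℚ)
    (hB : 0 ≤ B) (hN : D.natDegree < N)
    (hc : ∀ k < N, padicNorm (2 * h + 1) ((D.coeff k : ℚ) * TT p q z x c h (X ^ k)) ≤ B) :
    padicNorm (2 * h + 1) (TT p q z x c h D) ≤ B := by
  have : Fact (2 * h + 1).Prime := ⟨hl⟩
  rw [TT_sum p q z x c h D hN]
  have h1 := val_sum_le (2 * h + 1) 1 (range N)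
    (fun k => (D.coeff k : ℚ) * TT p q z x c h (X ^ k)) hB one_ne_zero ?_
  · rwa [pow_one] at h1
  · intro k hk
    rw [mem_range] at hk
    rw [pow_one]
    exact hc k hk

/-- no obstruction: low degree and `T(X^(l-1))` integral -/
theorem TT_lowdeg (p q : ℤ) (hq : 0 < q) (z x c h : ℕ) (hz : 1 ≤ z) (hl : (2 * h + 1).Prime)
    (hh : 1 ≤ h)
    (hb : 2 * (2 * c * h + c + h) + (z * (2 * h + 1) + x * (2 * h + 1)) + 3 * (2 * h + 1) + 5 <
      (2 * h + 1) ^ 2) (h0 : padicNorm (2 * h + 1) (TT p q z x c h (X ^ (2 * h))) ≤ 1)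
    (D : ℤ[X]) (hD : D.natDegree + 2 ≤ 2 * (2 * h + 1)) :
    padicNorm (2 * h + 1) (TT p q z x c h D) ≤ 1 := by
  have : Fact (2 * h + 1).Prime := ⟨hl⟩
  refine TT_norm_le p q z x c h hl D 1 zero_le_one (Nat.lt_succ_self _) fun k hk => ?_
  apply int_mul_norm
  by_cases hk1 : k = 2 * h
  · rw [hk1]
    exact h0
  · apply TT_good p q hq z x c h k hz hl hh hb (by omega)
    intro hd
    obtain ⟨m, hm⟩ := hd
    have hm0 : m ≠ 0 := by rintro rfl; omega
    have hm1 : m ≠ 1 := by rintro rfl; omega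
    have hm2 : (2 * h + 1) * 2 ≤ (2 * h + 1) * m := Nat.mul_le_mul_left _ (by omega)
    omega

/-- `(X - κ)^l = X^l - κ + l R` -/
theorem frob (l : ℕ) (hl : l.Prime) (κ : ℤ) (k : ℕ) :
    ((l : ℕ) : ℤ) ∣ (((X - C κ) ^ l - (X ^ l - C κ)) : ℤ[X]).coeff k := by
  have : Fact l.Prime := ⟨hl⟩
  have h1 : (((X - C κ) ^ l - (X ^ l - C κ)) : ℤ[X]).map (Int.castRingHom (ZMod l)) = 0 := by
    rw [Polynomial.map_sub, Polynomial.map_pow, Polynomial.map_sub, Polynomial.map_sub,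
      Polynomial.map_pow, map_X, map_C, sub_pow_char, ← C_pow, ZMod.pow_card, sub_self]
  have h2 := congrArg (fun P => P.coeff k) h1
  simp only [coeff_map, coeff_zero] at h2
  exact (ZMod.intCast_zmod_eq_zero_iff_dvd _ _).1 h2

/-- approximation by an integer -/
theorem approx (l : ℕ) [hl : Fact l.Prime] (u v : ℚ) (hu : padicNorm l u ≤ padicNorm l v)
    (hv : padicNorm l v ≤ l) (hv0 : v ≠ 0) :
    ∃ κ : ℤ, padicNorm l (u - κ * v) ≤ 1 := by
  have hvp : 0 < padicNorm l v := lt_of_le_of_ne (padicNorm.nonneg _) (padicNorm.nonzero hv0).symm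
  have hl0 : (0 : ℚ) < l := by exact_mod_cast hl.out.pos
  set w : ℚ := u / v with hw
  have hw1 : padicNorm l w ≤ 1 := by
    rw [hw, padicNorm.div]
    exact div_le_one_of_le₀ hu hvp.le
  -- the denominator of `w` is prime to `l`
  have hden : ¬ l ∣ w.den := by
    intro hd
    have h1 := nrm_dvd l w.den hd
    have h2 : ¬ ((l : ℤ) ∣ w.num) := by
      intro h3
      have h4 : l ∣ w.num.natAbs := Int.natCast_dvd.1 h3
      have h5 := Nat.dvd_gcd h4 hd
      rw [w.reduced.gcd_eq_one] at h5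
      exact hl.out.one_lt.ne' (Nat.dvd_one.1 h5)
    have h6 : padicNorm l (w.num : ℚ) = 1 := (padicNorm.int_eq_one_iff _).2 h2
    have h7 : padicNorm l w * padicNorm l (w.den : ℚ) = 1 := by
      rw [← padicNorm.mul, Rat.mul_den_eq_num, h6]
    have h8 : padicNorm l w * padicNorm l (w.den : ℚ) ≤ 1 * (l : ℚ)⁻¹ :=
      mul_le_mul hw1 h1 (padicNorm.nonneg _) zero_le_one
    rw [h7, one_mul, le_inv_comm₀ zero_lt_one hl0, inv_one] at h8
    have h9 : (1 : ℚ) < l := by exact_mod_cast hl.out.one_lt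
    linarith
  have hcop : IsCoprime (w.den : ℤ) (l : ℤ) := by
    rw [Int.isCoprime_iff_gcd_eq_one, Int.gcd_natCast_natCast]
    exact ((Nat.Prime.coprime_iff_not_dvd hl.out).2 hden).symm
  obtain ⟨s, t, hst⟩ := hcop
  refine ⟨w.num * s, ?_⟩
  have h1 : w - ((w.num * s : ℤ) : ℚ) = (l : ℚ) * ((w.num * t : ℤ) : ℚ) / w.den := by
    have hd0 : (w.den : ℚ) ≠ 0 := by exact_mod_cast w.den_ne_zero
    rw [eq_div_iff hd0, sub_mul, Rat.mul_den_eq_num]
    have h2 : (s : ℚ) * w.den + t * l = 1 := by exact_mod_cast hst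
    push_cast
    linear_combination (-(w.num : ℚ)) * h2
  have h2 : padicNorm l (w - ((w.num * s : ℤ) : ℚ)) ≤ (l : ℚ)⁻¹ := by
    rw [h1, padicNorm.div, nrm_one l _ hden, div_one, padicNorm.mul,
      padicNorm.padicNorm_p_of_prime]
    exact mul_le_of_le_one_right (by positivity) (padicNorm.of_int _)
  have h3 : u - ((w.num * s : ℤ) : ℚ) * v = (w - ((w.num * s : ℤ) : ℚ)) * v := by
    rw [sub_mul, hw, div_mul_cancel₀ _ hv0]
  rw [h3, padicNorm.mul]
  calc _ ≤ (l : ℚ)⁻¹ * l := mul_le_mul h2 hv hvp.le (by positivity)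
    _ = 1 := inv_mul_cancel₀ hl0.ne'

/-- the correction by `(X - κ)^l` -/
theorem TT_kappa (p q : ℤ) (hq : 0 < q) (z x c h : ℕ) (hz : 1 ≤ z) (hl : (2 * h + 1).Prime)
    (hh : 1 ≤ h)
    (hb : 2 * (2 * c * h + c + h) + (z * (2 * h + 1) + x * (2 * h + 1)) + 3 * (2 * h + 1) + 5 <
      (2 * h + 1) ^ 2) (κ : ℤ)
    (hκ : padicNorm (2 * h + 1) (TT p q z x c h (X ^ (2 * h + 1 + 2 * h)) -
      κ * TT p q z x c h (X ^ (2 * h))) ≤ 1) (k : ℕ) (hk : k + 2 ≤ 2 * (2 * h + 1)) :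
    padicNorm (2 * h + 1) (TT p q z x c h ((X - C κ) ^ (2 * h + 1) * X ^ k)) ≤ 1 := by
  have : Fact (2 * h + 1).Prime := ⟨hl⟩
  have hl0 : (0 : ℚ) < ((2 * h + 1 : ℕ) : ℚ) := by positivity
  set R : ℤ[X] := (X - C κ) ^ (2 * h + 1) - (X ^ (2 * h + 1) - C κ) with hR
  have hRd : R.natDegree ≤ 2 * h + 1 := by
    have h1 : (X - C κ : ℤ[X]).natDegree ≤ 1 := by compute_degree
    have h2 : ((X - C κ : ℤ[X]) ^ (2 * h + 1)).natDegree ≤ 2 * h + 1 := by
      have := natDegree_pow_le_of_le (2 * h + 1) h1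
      omega
    have h3 : ((X : ℤ[X]) ^ (2 * h + 1) - C κ).natDegree ≤ 2 * h + 1 := by compute_degree
    exact (natDegree_sub_le _ _).trans (max_le h2 h3)
  have e1 : (X - C κ) ^ (2 * h + 1) * X ^ k =
      R * X ^ k + (X ^ (2 * h + 1 + k) - κ • X ^ k) := by
    rw [hR, smul_eq_C_mul, pow_add]
    ring
  rw [e1, map_add, map_sub, map_smul, zsmul_eq_mul]
  refine padicNorm.nonarchimedean.trans (max_le ?_ ?_)
  · refine TT_norm_le p q z x c h hl _ 1 zero_le_one (N := 2 * h + 1 + k + 1) ?_ ?_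
    · have := natDegree_mul_le_of_le hRd (natDegree_X_pow_le (R := ℤ) k)
      omega
    · intro j hj
      have hdvd : (((2 * h + 1 : ℕ)) : ℤ) ∣ (R * X ^ k).coeff j := by
        rw [coeff_mul_X_pow']
        split_ifs
        · exact frob _ hl κ _
        · exact dvd_zero _
      obtain ⟨m, hm⟩ := hdvd
      rw [hm, Int.cast_mul, Int.cast_natCast, padicNorm.mul, padicNorm.mul,
        padicNorm.padicNorm_p_of_prime]
      have h1 : ((2 * h + 1 : ℕ) : ℚ)⁻¹ * padicNorm (2 * h + 1) (m : ℚ) ≤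
          ((2 * h + 1 : ℕ) : ℚ)⁻¹ := mul_le_of_le_one_right (by positivity) (padicNorm.of_int m)
      calc _ ≤ ((2 * h + 1 : ℕ) : ℚ)⁻¹ * ((2 * h + 1 : ℕ) : ℚ) :=
            mul_le_mul h1 (TT_all p q z x c h j hl hh hb (by omega)) (padicNorm.nonneg _)
              (by positivity)
        _ = 1 := inv_mul_cancel₀ hl0.ne'
  · by_cases hk1 : k = 2 * h
    · rw [hk1]
      exact hκ
    · have hnd : ∀ m, m ≠ 2 * h → m ≠ 2 * h + 1 + 2 * h → m + 2 ≤ 3 * (2 * h + 1) →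
          ¬ (2 * h + 1) ∣ m + 1 := by
        intro m h1 h2 h3 hd
        obtain ⟨j, hj⟩ := hd
        have hm0 : j ≠ 0 := by rintro rfl; omega
        have hm1 : j ≠ 1 := by rintro rfl; omega
        have hm2 : j ≠ 2 := by rintro rfl; omega
        have hm3 : (2 * h + 1) * 3 ≤ (2 * h + 1) * j := Nat.mul_le_mul_left _ (by omega)
        omega
      refine padicNorm.sub.trans (max_le ?_ ?_)
      · exact TT_good p q hq z x c h _ hz hl hh hb (by omega)
          (hnd _ (by omega) (by omega) (by omega))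
      · apply int_mul_norm
        exact TT_good p q hq z x c h _ hz hl hh hb (by omega)
          (hnd _ (by omega) (by omega) (by omega))

theorem TT_kappa_poly (p q : ℤ) (hq : 0 < q) (z x c h : ℕ) (hz : 1 ≤ z) (hl : (2 * h + 1).Prime)
    (hh : 1 ≤ h)
    (hb : 2 * (2 * c * h + c + h) + (z * (2 * h + 1) + x * (2 * h + 1)) + 3 * (2 * h + 1) + 5 <
      (2 * h + 1) ^ 2) (κ : ℤ)
    (hκ : padicNorm (2 * h + 1) (TT p q z x c h (X ^ (2 * h + 1 + 2 * h)) -
      κ * TT p q z x c h (X ^ (2 * h))) ≤ 1) (D : ℤ[X]) (hD : D.natDegree + 2 ≤ 2 * (2 * h + 1)) :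
    padicNorm (2 * h + 1) (TT p q z x c h ((X - C κ) ^ (2 * h + 1) * D)) ≤ 1 := by
  have : Fact (2 * h + 1).Prime := ⟨hl⟩
  have h1 : TT p q z x c h ((X - C κ) ^ (2 * h + 1) * D) = ∑ k ∈ range (D.natDegree + 1),
      (D.coeff k : ℚ) * TT p q z x c h ((X - C κ) ^ (2 * h + 1) * X ^ k) := by
    conv_lhs => rw [D.as_sum_range, mul_sum, map_sum]
    refine sum_congr rfl fun k _ => ?_
    rw [← smul_X_eq_monomial, mul_smul_comm, map_smul, zsmul_eq_mul]
  rw [h1]
  have h2 := val_sum_le (2 * h + 1) 1 (range (D.natDegree + 1))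
    (fun k => (D.coeff k : ℚ) * TT p q z x c h ((X - C κ) ^ (2 * h + 1) * X ^ k))
    zero_le_one one_ne_zero ?_
  · rwa [pow_one] at h2
  · intro k hk
    rw [mem_range] at hk
    rw [pow_one]
    apply int_mul_norm
    exact TT_kappa p q hq z x c h hz hl hh hb κ hκ k (by omega)

/-! ### the rows of the window -/

/-- rows: multiples of `P` from the index `s` on -/
noncomputable def rowG (P : ℤ[X]) (s i : ℕ) : ℤ[X] := if s ≤ i then P * X ^ (i - s) else X ^ i

theorem rowG_monic {P : ℤ[X]} (hP : P.Monic) (s i : ℕ) : (rowG P s i).Monic := by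
  rw [rowG]
  split_ifs
  · exact hP.mul (monic_X_pow _)
  · exact monic_X_pow _

theorem rowG_natDegree {P : ℤ[X]} (hP : P.Monic) {s : ℕ} (hs : P.natDegree = s) (i : ℕ) :
    (rowG P s i).natDegree = i := by
  rw [rowG]
  split_ifs with h
  · rw [hP.natDegree_mul (monic_X_pow _), hs, natDegree_X_pow]
    omega
  · exact natDegree_X_pow _

/-- the base polynomial of the rows of the window -/
noncomputable def baseP (a b g : ℕ) : ℤ[X] := wpz a b * Qz ^ g

theorem wpz_monic (a b : ℕ) : (wpz a b).Monic := by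
  rw [wpz]
  exact ((monic_X_sub_C _).pow _).mul ((monic_X_sub_C _).pow _)

theorem wpz_natDegree (a b : ℕ) : (wpz a b).natDegree = a + b := by
  rw [wpz, ((monic_X_sub_C _).pow _).natDegree_mul ((monic_X_sub_C _).pow _),
    (monic_X_sub_C _).natDegree_pow, (monic_X_sub_C _).natDegree_pow, natDegree_X_sub_C,
    natDegree_X_sub_C, mul_one, mul_one]

theorem wpz_mul (a b a' b' : ℕ) : wpz a b * wpz a' b' = wpz (a + a') (b + b') := by
  rw [wpz, wpz, wpz, pow_add, pow_add]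
  ring

theorem baseP_monic (a b g : ℕ) : (baseP a b g).Monic := by
  rw [baseP]
  exact (wpz_monic a b).mul (Qz_monic.pow g)

theorem baseP_natDegree (a b g : ℕ) : (baseP a b g).natDegree = a + b + 2 * g := by
  rw [baseP, (wpz_monic a b).natDegree_mul (Qz_monic.pow g), wpz_natDegree,
    Qz_monic.natDegree_pow, Qz_natDegree, mul_comm]

/-- entries in the rows of the window -/
theorem base_id (b f E : ℕ) (p q : ℤ) (hq : 0 < q) (z x c h : ℕ) (G : ℤ[X]) :
    LE p q E (baseP (z * (2 * h + 1) - b) (x * (2 * h + 1) - f) (E - (2 * c * h + c + h)) * G *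
      wpz b f) = TT p q z x c h (baseP (b - z * (2 * h + 1)) (f - x * (2 * h + 1))
        ((2 * c * h + c + h) - E) * G) := by
  set l : ℕ := 2 * h + 1
  set E' : ℕ := 2 * c * h + c + h
  have h1 : baseP (z * l - b) (x * l - f) (E - E') * G * wpz b f =
      Qz ^ (E - E') * (wpz (z * l) (x * l) * (wpz (b - z * l) (f - x * l) * G)) := by
    have h2 : wpz (z * l - b) (x * l - f) * wpz b f =
        wpz (z * l) (x * l) * wpz (b - z * l) (f - x * l) := by
      rw [wpz_mul, wpz_mul]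
      congr 1 <;> omega
    rw [baseP]
    linear_combination (Qz ^ (E - E') * G) * h2
  obtain ⟨m, h3, h5⟩ : ∃ m, E = m + (E - E') ∧ E' = m + (E' - E) :=
    ⟨E - (E - E'), by omega, by omega⟩
  have h6 : CZ z x l * (baseP (b - z * l) (f - x * l) (E' - E) * G) =
      Qz ^ (E' - E) * (wpz (z * l) (x * l) * (wpz (b - z * l) (f - x * l) * G)) := by
    have h7 : CZ z x l = wpz (z * l) (x * l) := rfl
    rw [h7, baseP]
    ring
  have k1 := LE_mul_Q_pow p q hq m (E - E')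
    (wpz (z * l) (x * l) * (wpz (b - z * l) (f - x * l) * G))
  have k2 := LE_mul_Q_pow p q hq m (E' - E)
    (wpz (z * l) (x * l) * (wpz (b - z * l) (f - x * l) * G))
  rw [← h3] at k1
  rw [← h5] at k2
  rw [h1, TT_apply, h6, k1, ← k2]

theorem le_norm_of_one_lt (l : ℕ) [hl : Fact l.Prime] {v : ℚ} (hv : 1 < padicNorm l v) :
    (l : ℚ) ≤ padicNorm l v := by
  have hv0 : v ≠ 0 := by
    rintro rfl
    rw [padicNorm.zero] at hv
    exact absurd hv (by norm_num)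
  have hl1 : (1 : ℚ) < l := by exact_mod_cast hl.out.one_lt
  rw [padicNorm.eq_zpow_of_nonzero hv0] at hv ⊢
  have h1 : 0 < -padicValRat l v := by
    by_contra hc
    have h2 := zpow_le_one_of_nonpos₀ hl1.le (not_lt.1 hc)
    exact absurd hv (not_lt.2 h2)
  have h3 := zpow_le_zpow_right₀ hl1.le (by omega : (1 : ℤ) ≤ -padicValRat l v)
  rwa [zpow_one] at h3

/-- **The window.** -/
theorem win_main (b f E K : ℕ) (p q : ℤ) (hq : 0 < q) (z x c s h : ℕ) (hz : 1 ≤ z)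
    (hs : s + 2 * c = z + x + 2) (hl : (2 * h + 1).Prime) (hh : 1 ≤ h)
    (hb : 2 * (2 * c * h + c + h) + (z * (2 * h + 1) + x * (2 * h + 1)) + 3 * (2 * h + 1) + 5 <
      (2 * h + 1) ^ 2) (hr : rg b f E K < (2 * h + 1) ^ 2) :
    padicNorm (2 * h + 1) (NN b f E K p q) ≤ ((2 * h + 1 : ℕ) : ℚ) ^
      ((z * (2 * h + 1) - b) + (x * (2 * h + 1) - f) + (2 * E + 1 - (2 * c + 1) * (2 * h + 1)) +
        (2 * h + 1) + ((2 * K + b + f) - (2 * E + s * (2 * h + 1)))) := by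
  have hf : Fact (2 * h + 1).Prime := ⟨hl⟩
  have h2 : 2 * h + 1 ≠ 2 := by omega
  have hl1 : (1 : ℚ) ≤ ((2 * h + 1 : ℕ) : ℚ) := by exact_mod_cast hl.one_lt.le
  have hE' : 2 * (2 * c * h + c + h) + 1 = (2 * c + 1) * (2 * h + 1) := by ring
  have hSC : s * (2 * h + 1) + (2 * c + 1) * (2 * h + 1) =
      z * (2 * h + 1) + x * (2 * h + 1) + 3 * (2 * h + 1) := by
    rw [← add_mul, ← add_mul, ← add_mul]
    congr 1
    omega
  have hid := base_id b f E p q hq z x c h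
  set E' : ℕ := 2 * c * h + c + h with hE'def
  set A : ℕ := z * (2 * h + 1) with hA
  set B : ℕ := x * (2 * h + 1) with hB
  set S : ℕ := s * (2 * h + 1) with hS
  set CC : ℕ := (2 * c + 1) * (2 * h + 1) with hCC
  set base : ℤ[X] := baseP (A - b) (B - f) (E - E') with hbase
  set s1 : ℕ := (A - b) + (B - f) + 2 * (E - E') with hs1
  have hbm : base.Monic := baseP_monic _ _ _
  have hbd : base.natDegree = s1 := baseP_natDegree _ _ _
  have hbd' : (baseP (b - A) (f - B) (E' - E)).natDegree = (b - A) + (f - B) + 2 * (E' - E) :=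
    baseP_natDegree _ _ _
  have hexp : (A - b) + (B - f) + (2 * E + 1 - CC) + (2 * h + 1) + ((2 * K + b + f) - (2 * E + S)) =
      s1 + ((2 * h + 1) + ((2 * K + b + f) - (2 * E + S))) := by omega
  rw [hexp]
  by_cases h0 : padicNorm (2 * h + 1) (TT p q z x c h (X ^ (2 * h))) ≤ 1
  · refine det_bound b f E K p q _ hl (rowG base s1) (fun i _ => rowG_monic hbm s1 i)
      (fun i _ => rowG_natDegree hbm hbd i)
      (fun i => s1 ≤ i ∧ i + K + b + f + (2 * h + 1) ≤ 2 * E + S) _ _ hl1 ?_ ?_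
      (fun i hi j hj => lo_all b f E K p q _ hl h2 hr _ (rowG_natDegree hbm hbd i) hi hj)
    · apply Det.lo_count
      intro i hi hni
      by_contra hcon
      rw [not_or] at hcon
      apply hni
      omega
    · intro i hi hg j hj
      have e1 : rowG base s1 i * X ^ j * wpz b f = base * (X ^ (i - s1) * X ^ j) * wpz b f := by
        rw [rowG, if_pos hg.1]
        ring
      rw [e1, hid, ← pow_add]
      apply TT_lowdeg p q hq z x c h hz hl hh hb h0
      have h3 := natDegree_mul_le_of_le hbd'.le (natDegree_X_pow_le (R := ℤ) (i - s1 + j))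
      omega
  · have h1 := le_norm_of_one_lt _ (not_le.1 h0)
    obtain ⟨κ, hκ⟩ := approx (2 * h + 1) (TT p q z x c h (X ^ (2 * h + 1 + 2 * h)))
      (TT p q z x c h (X ^ (2 * h)))
      ((TT_all p q z x c h _ hl hh hb (by omega)).trans h1)
      (TT_all p q z x c h _ hl hh hb (by omega)) (by
        intro h3
        rw [h3, padicNorm.zero] at h0
        exact h0 zero_le_one)
    have hPm : (base * (X - C κ) ^ (2 * h + 1)).Monic := hbm.mul ((monic_X_sub_C _).pow _)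
    have hPd : (base * (X - C κ) ^ (2 * h + 1)).natDegree = s1 + (2 * h + 1) := by
      rw [hbm.natDegree_mul ((monic_X_sub_C _).pow _), hbd, (monic_X_sub_C _).natDegree_pow,
        natDegree_X_sub_C, mul_one]
    have hexp2 : s1 + ((2 * h + 1) + ((2 * K + b + f) - (2 * E + S))) =
        (s1 + (2 * h + 1)) + ((2 * K + b + f) - (2 * E + S)) := by omega
    rw [hexp2]
    refine det_bound b f E K p q _ hl (rowG (base * (X - C κ) ^ (2 * h + 1)) (s1 + (2 * h + 1)))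
      (fun i _ => rowG_monic hPm _ i) (fun i _ => rowG_natDegree hPm hPd i)
      (fun i => s1 + (2 * h + 1) ≤ i ∧ i + K + b + f ≤ 2 * E + S) _ _ hl1 ?_ ?_
      (fun i hi j hj => lo_all b f E K p q _ hl h2 hr _ (rowG_natDegree hPm hPd i) hi hj)
    · apply Det.lo_count
      intro i hi hni
      by_contra hcon
      rw [not_or] at hcon
      apply hni
      omega
    · intro i hi hg j hj
      have e1 : rowG (base * (X - C κ) ^ (2 * h + 1)) (s1 + (2 * h + 1)) i * X ^ j * wpz b f =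
          base * ((X - C κ) ^ (2 * h + 1) * (X ^ (i - (s1 + (2 * h + 1))) * X ^ j)) * wpz b f := by
        rw [rowG, if_pos hg.1]
        ring
      have e2 : baseP (b - A) (f - B) (E' - E) *
          ((X - C κ) ^ (2 * h + 1) * (X ^ (i - (s1 + (2 * h + 1))) * X ^ j)) =
          (X - C κ) ^ (2 * h + 1) * (baseP (b - A) (f - B) (E' - E) *
            X ^ (i - (s1 + (2 * h + 1)) + j)) := by
        rw [pow_add]
        ring
      rw [e1, hid, e2]
      apply TT_kappa_poly p q hq z x c h hz hl hh hb κ hκ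
      have h3 := natDegree_mul_le_of_le hbd'.le
        (natDegree_X_pow_le (R := ℤ) (i - (s1 + (2 * h + 1)) + j))
      omega

end Vale.Agent.P021.R2.H542
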