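import Vale.Agent.P021.R2.H542.Win

/-!
# The arithmetic cost with the window `(z, x, 2c+1) = (1, 2, 3)`
-/

set_option autoImplicit false

namespace Vale.Agent.P021.R2.H542

open Vale.Agent.P021.R2.H636
open Filter Topology Finset

/-- normalised number of bad rows in the basis of the window -/
noncomputable def winF (b f E K y : ℝ) : ℝ :=
  max (y - b) 0 + max (2 * y - f) 0 + max (2 * E - 3 * y) 0 + max y 0 +
    max (2 * K + b + f - 2 * E - 3 * y) 0

/-- normalised number of bad rows in the monomial basis -/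
noncomputable def plainF (b f E K y : ℝ) : ℝ :=
  max (2 * E - y) 0 + max (2 * K + b + f - 2 * E - y) 0

/-- normalised rank bound -/
noncomputable def phiW (b f E K y : ℝ) : ℝ := min K (min (plainF b f E K y) (winF b f E K y))

lemma phiW_nonneg {b f E K y : ℝ} (hK : 0 ≤ K) : 0 ≤ phiW b f E K y := by
  refine le_min hK (le_min ?_ ?_)
  · unfold plainF; positivity
  · unfold winF; positivity

lemma phiW_lip (b f E K x y : ℝ) : |phiW b f E K x - phiW b f E K y| ≤ 10 * |x - y| := by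
  have h1 := Det.max_sub_le (x - b) (y - b)
  have h2 := Det.max_sub_le (2 * x - f) (2 * y - f)
  have h3 := Det.max_sub_le (2 * E - 3 * x) (2 * E - 3 * y)
  have h4 := Det.max_sub_le x y
  have h5 := Det.max_sub_le (2 * K + b + f - 2 * E - 3 * x) (2 * K + b + f - 2 * E - 3 * y)
  have h6 := Det.max_sub_le (2 * E - x) (2 * E - y)
  have h7 := Det.max_sub_le (2 * K + b + f - 2 * E - x) (2 * K + b + f - 2 * E - y)
  have e1 : x - b - (y - b) = x - y := by ring
  have e2 : 2 * x - f - (2 * y - f) = 2 * (x - y) := by ring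
  have e3 : 2 * E - 3 * x - (2 * E - 3 * y) = -(3 * (x - y)) := by ring
  have e5 : 2 * K + b + f - 2 * E - 3 * x - (2 * K + b + f - 2 * E - 3 * y) =
    -(3 * (x - y)) := by ring
  have e6 : 2 * E - x - (2 * E - y) = -(x - y) := by ring
  have e7 : 2 * K + b + f - 2 * E - x - (2 * K + b + f - 2 * E - y) = -(x - y) := by ring
  rw [e1] at h1
  rw [e2, abs_mul, abs_of_pos (by norm_num : (0 : ℝ) < 2)] at h2
  rw [e3, abs_neg, abs_mul, abs_of_pos (by norm_num : (0 : ℝ) < 3)] at h3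
  rw [e5, abs_neg, abs_mul, abs_of_pos (by norm_num : (0 : ℝ) < 3)] at h5
  rw [e6, abs_neg] at h6
  rw [e7, abs_neg] at h7
  have h0 := abs_nonneg (x - y)
  unfold phiW
  refine (abs_min_sub_min_le_max _ _ _ _).trans ?_
  rw [sub_self, abs_zero]
  refine max_le (by positivity) ((abs_min_sub_min_le_max _ _ _ _).trans (max_le ?_ ?_))
  · rw [abs_le] at h6 h7 ⊢
    unfold plainF
    constructor <;> linarith only [h6, h7, h0]
  · rw [abs_le] at h1 h2 h3 h4 h5 ⊢
    unfold winF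
    constructor <;> linarith only [h1, h2, h3, h4, h5, h0]

lemma continuous_phiW (b f E K : ℝ) : Continuous (phiW b f E K) := by
  unfold phiW plainF winF
  fun_prop

lemma winF_chord (b f E K : ℝ) {u v y : ℝ} (huv : u ≤ v) (hy : y ∈ Set.Icc u v) :
    winF b f E K y * (v - u) ≤ winF b f E K u * (v - y) + winF b f E K v * (y - u) := by
  have h1 := Det.max_chord (c := -b) (d := 1) huv hy
  have h2 := Det.max_chord (c := -f) (d := 2) huv hy
  have h3 := Det.max_chord (c := 2 * E) (d := -3) huv hy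
  have h4 := Det.max_chord (c := 0) (d := 1) huv hy
  have h5 := Det.max_chord (c := 2 * K + b + f - 2 * E) (d := -3) huv hy
  simp only [one_mul, neg_mul, ← sub_eq_add_neg, neg_add_eq_sub, zero_add] at h1 h2 h3 h4 h5
  unfold winF
  linarith only [h1, h2, h3, h4, h5]

lemma int_phiW_win (b f E K : ℝ) {u v : ℝ} (huv : u ≤ v) :
    ∫ y in u..v, phiW b f E K y ≤ (v - u) * (winF b f E K u + winF b f E K v) / 2 :=
  trap_le (continuous_phiW b f E K) huv fun _ hy =>
    (mul_le_mul_of_nonneg_right ((min_le_right _ _).trans (min_le_right _ _))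
      (by linarith [hy.1, hy.2])).trans (winF_chord b f E K huv hy)

lemma int_phiW_K (b f E K : ℝ) {u v : ℝ} (huv : u ≤ v) :
    ∫ y in u..v, phiW b f E K y ≤ (v - u) * K := by
  have h := trap_le (continuous_phiW b f E K) huv (P := K) (Q := K) fun y hy => by
    have h1 : phiW b f E K y ≤ K := min_le_left _ _
    have h2 := mul_le_mul_of_nonneg_right h1 (by linarith [hy.1, hy.2] : 0 ≤ v - u)
    linarith
  linarith only [h]

/-- the plain part of the integral from `a` on -/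
lemma int_phiW_plain_aux {f : ℝ → ℝ} (hf : Continuous f) {A B K X a : ℝ}
    (hfle : ∀ y, f y ≤ min K (max (A - y) 0 + max (B - y) 0)) (hAB : A ≤ B) (hD : B - A ≤ K)
    (ha : a ≤ (A + B - K) / 2) (hX : B ≤ X) :
    ∫ y in a..X, f y ≤ K * (A + B) / 2 - K ^ 2 / 4 + (A - B) ^ 2 / 4 - K * a := by
  set u : ℝ := (A + B - K) / 2 with hu
  have huA : u ≤ A := by linarith only [hu, hD]
  have i1 := trap_le hf (P := K) (Q := K) ha fun y hy => by
    have h1 : f y ≤ K := (hfle y).trans (min_le_left _ _)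
    have h2 := mul_le_mul_of_nonneg_right h1 (by linarith only [ha] : 0 ≤ u - a)
    linarith only [h2]
  have i2 := trap_le hf (P := K) (Q := B - A) huA fun y hy => by
    have h1 : f y ≤ A + B - 2 * y := by
      refine ((hfle y).trans (min_le_right _ _)).trans (le_of_eq ?_)
      rw [max_eq_left (by linarith only [hy.2]), max_eq_left (by linarith only [hy.2, hAB])]
      ring
    have h2 := mul_le_mul_of_nonneg_right h1 (by linarith only [huA] : 0 ≤ A - u)
    have h3 : K = A + B - 2 * u := by rw [hu]; ring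
    refine h2.trans (le_of_eq ?_)
    rw [h3]
    ring
  have i3 := trap_le hf (P := B - A) (Q := 0) hAB fun y hy => by
    have h1 : f y ≤ B - y := by
      refine ((hfle y).trans (min_le_right _ _)).trans (le_of_eq ?_)
      rw [max_eq_right (by linarith only [hy.1]), max_eq_left (by linarith only [hy.2]), zero_add]
    have h2 := mul_le_mul_of_nonneg_right h1 (by linarith only [hAB] : 0 ≤ B - A)
    refine h2.trans (le_of_eq ?_)
    ring
  have i4 := trap_le hf (P := 0) (Q := 0) hX fun y hy => by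
    have h1 : f y ≤ 0 := by
      refine ((hfle y).trans (min_le_right _ _)).trans (le_of_eq ?_)
      rw [max_eq_right (by linarith only [hy.1, hAB]), max_eq_right (by linarith only [hy.1]),
        zero_add]
    have h2 := mul_le_mul_of_nonneg_right h1 (by linarith only [hX] : 0 ≤ X - B)
    linarith only [h2]
  have hsplit : ∫ y in a..X, f y = (∫ y in a..u, f y) +
      (∫ y in u..A, f y) + (∫ y in A..B, f y) + ∫ y in B..X, f y := by
    rw [intervalIntegral.integral_add_adjacent_intervals (hf.intervalIntegrable _ _)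
      (hf.intervalIntegrable _ _), intervalIntegral.integral_add_adjacent_intervals
      (hf.intervalIntegrable _ _) (hf.intervalIntegrable _ _),
      intervalIntegral.integral_add_adjacent_intervals (hf.intervalIntegrable _ _)
      (hf.intervalIntegrable _ _)]
  rw [hsplit]
  have e1 : (u - a) * (K + K) / 2 + (A - u) * (K + (B - A)) / 2 + (B - A) * (B - A + 0) / 2 +
      (X - B) * (0 + 0) / 2 = K * (A + B) / 2 - K ^ 2 / 4 + (A - B) ^ 2 / 4 - K * a := by
    rw [hu]
    ring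
  linarith only [i1, i2, i3, i4, e1]

lemma int_phiW_plain {f : ℝ → ℝ} (hf : Continuous f) {A B K X a : ℝ}
    (hfle : ∀ y, f y ≤ min K (max (A - y) 0 + max (B - y) 0)) (hD : |A - B| ≤ K)
    (ha : a ≤ (A + B - K) / 2) (hXA : A ≤ X) (hX : B ≤ X) :
    ∫ y in a..X, f y ≤ K * (A + B) / 2 - K ^ 2 / 4 + (A - B) ^ 2 / 4 - K * a := by
  rw [abs_le] at hD
  rcases le_total A B with h | h
  · exact int_phiW_plain_aux hf hfle h (by linarith only [hD.1]) ha hX
  · have h1 := int_phiW_plain_aux (X := X) hf (fun y => (hfle y).trans (le_of_eq (by rw [add_comm])))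
      h (by linarith only [hD.2]) (by linarith only [ha] : a ≤ (B + A - K) / 2) hXA
    refine h1.trans (le_of_eq ?_)
    ring

/-- the local bound in the normalised form -/
theorem loc_phiW (K0 b0 f0 E0 n κ : ℕ) (hn : 0 < n) (hκ : κ ≤ 2) (p q : ℤ) (hq : 0 < q) (l : ℕ)
    (hl : l.Prime) (h2 : l ≠ 2) (hr : rg (b0 * n) (f0 * n) (E0 * n) (K0 * n + κ) < l ^ 2) :
    ∃ e : ℕ, padicNorm l (NN (b0 * n) (f0 * n) (E0 * n) (K0 * n + κ) p q) ≤ (l : ℚ) ^ e ∧
      (e : ℝ) ≤ n * phiW b0 f0 E0 K0 ((l : ℝ) / n) + 100 := by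
  have hnR : (0 : ℝ) < n := by exact_mod_cast hn
  have hκR : (κ : ℝ) ≤ 2 := by exact_mod_cast hκ
  have hκ0 : (0 : ℝ) ≤ κ := Nat.cast_nonneg _
  have hlK := lo_K _ _ _ _ p q l hl h2 hr
  by_cases hl11 : l < 11
  · refine ⟨K0 * n + κ, hlK, ?_⟩
    have h3 : l ^ 2 ≤ 10 ^ 2 := Nat.pow_le_pow_left (by omega) 2
    have h4 : K0 * n + κ ≤ 100 := by
      unfold rg at hr
      omega
    have h5 : ((K0 * n + κ : ℕ) : ℝ) ≤ 100 := by exact_mod_cast h4
    have h6 := mul_nonneg hnR.le (phiW_nonneg (b := b0) (f := f0) (E := E0) (y := (l : ℝ) / n)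
      (Nat.cast_nonneg K0 : (0 : ℝ) ≤ K0))
    linarith only [h5, h6]
  obtain ⟨h, hh⟩ := hl.odd_of_ne_two h2
  have hh5 : 5 ≤ h := by omega
  set d1 : ℕ := (2 * (E0 * n) + 1 - l) + ((2 * (K0 * n + κ) + b0 * n + f0 * n) -
    (2 * (E0 * n) + l)) with hd1
  set d2 : ℕ := (l - b0 * n) + (2 * l - f0 * n) + (2 * (E0 * n) + 1 - 3 * l) + l +
    ((2 * (K0 * n + κ) + b0 * n + f0 * n) - (2 * (E0 * n) + 3 * l)) with hd2
  have k1 : padicNorm l (NN (b0 * n) (f0 * n) (E0 * n) (K0 * n + κ) p q) ≤ (l : ℚ) ^ d1 :=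
    lo_plain _ _ _ _ p q hq l hl h2 hr
  have k2 : padicNorm l (NN (b0 * n) (f0 * n) (E0 * n) (K0 * n + κ) p q) ≤ (l : ℚ) ^ d2 := by
    have h3 := win_main (b0 * n) (f0 * n) (E0 * n) (K0 * n + κ) p q hq 1 2 1 3 h le_rfl
      (by norm_num) (by rw [← hh]; exact hl) (by omega) (by
        have h4 : 5 * h ≤ h * h := Nat.mul_le_mul_right h hh5
        have h5 : (2 * h + 1) ^ 2 = 4 * (h * h) + 4 * h + 1 := by ring
        rw [h5]
        omega) (by rw [← hh]; exact hr)
    rw [← hh] at h3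
    rw [one_mul] at h3
    exact h3
  refine ⟨min (K0 * n + κ) (min d1 d2), ?_, ?_⟩
  · have key : ∀ e, e = K0 * n + κ ∨ e = d1 ∨ e = d2 →
        padicNorm l (NN (b0 * n) (f0 * n) (E0 * n) (K0 * n + κ) p q) ≤ (l : ℚ) ^ e := by
      rintro e (rfl | rfl | rfl)
      · exact hlK
      · exact k1
      · exact k2
    apply key
    rcases min_choice (K0 * n + κ) (min d1 d2) with h3 | h3
    · exact Or.inl h3
    · rcases min_choice d1 d2 with h4 | h4
      · exact Or.inr (Or.inl (h3.trans h4))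
      · exact Or.inr (Or.inr (h3.trans h4))
  · set y : ℝ := (l : ℝ) / n with hy
    have hly : (l : ℝ) = n * y := by rw [hy]; field_simp
    have hy0 : 0 ≤ y := by rw [hy]; positivity
    have hadd : ∀ u v : ℝ, 0 ≤ v → max (u + v) 0 ≤ max u 0 + v := by
      intro u v hv
      exact max_le (by linarith only [le_max_left u 0]) (by linarith only [hv, le_max_right u 0])
    have h3 := Det.lo_sub (2 * (E0 * n) + 1) l
    have h4 := Det.lo_sub (2 * (K0 * n + κ) + b0 * n + f0 * n) (2 * (E0 * n) + l)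
    have w1 := Det.lo_sub l (b0 * n)
    have w2 := Det.lo_sub (2 * l) (f0 * n)
    have w3 := Det.lo_sub (2 * (E0 * n) + 1) (3 * l)
    have w5 := Det.lo_sub (2 * (K0 * n + κ) + b0 * n + f0 * n) (2 * (E0 * n) + 3 * l)
    push_cast at h3 h4 w1 w2 w3 w5
    have e3 : 2 * ((E0 : ℝ) * n) + 1 - l = n * (2 * E0 - y) + 1 := by rw [hly]; ring
    have e4 : 2 * ((K0 : ℝ) * n + κ) + b0 * n + f0 * n - (2 * (E0 * n) + l) =
        n * (2 * K0 + b0 + f0 - 2 * E0 - y) + 2 * κ := by rw [hly]; ring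
    have f1 : (l : ℝ) - b0 * n = n * (y - b0) := by rw [hly]; ring
    have f2 : 2 * (l : ℝ) - f0 * n = n * (2 * y - f0) := by rw [hly]; ring
    have f3 : 2 * ((E0 : ℝ) * n) + 1 - 3 * l = n * (2 * E0 - 3 * y) + 1 := by rw [hly]; ring
    have f5 : 2 * ((K0 : ℝ) * n + κ) + b0 * n + f0 * n - (2 * (E0 * n) + 3 * l) =
        n * (2 * K0 + b0 + f0 - 2 * E0 - 3 * y) + 2 * κ := by rw [hly]; ring
    rw [e3] at h3
    rw [e4] at h4
    rw [f1, Det.mul_max_zero hnR.le] at w1
    rw [f2, Det.mul_max_zero hnR.le] at w2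
    rw [f3] at w3
    rw [f5] at w5
    have h5 := hadd (n * (2 * E0 - y)) 1 zero_le_one
    have h6 := hadd (n * (2 * K0 + b0 + f0 - 2 * E0 - y)) (2 * κ) (by linarith only [hκ0])
    have w3' := hadd (n * (2 * E0 - 3 * y)) 1 zero_le_one
    have w5' := hadd (n * (2 * K0 + b0 + f0 - 2 * E0 - 3 * y)) (2 * κ) (by linarith only [hκ0])
    rw [Det.mul_max_zero hnR.le] at h5 h6 w3' w5'
    have h7 : (d1 : ℝ) ≤ n * plainF b0 f0 E0 K0 y + 100 := by
      rw [hd1, plainF]
      push_cast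
      linarith only [h3, h4, h5, h6, hκR]
    have h9 : (d2 : ℝ) ≤ n * winF b0 f0 E0 K0 y + 100 := by
      have h10 : max y 0 = y := max_eq_left hy0
      rw [hd2, winF, h10]
      push_cast
      linarith only [w1, w2, w3, w5, w3', w5', hκR, hly]
    have h8 : ((K0 * n + κ : ℕ) : ℝ) ≤ n * K0 + 100 := by
      push_cast
      linarith only [hκR]
    rw [Nat.cast_min, Nat.cast_min, phiW]
    rw [mul_min_of_nonneg _ _ hnR.le, mul_min_of_nonneg _ _ hnR.le, ← min_add_add_right,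
      ← min_add_add_right]
    exact min_le_min h8 (min_le_min h7 h9)

/-- the arithmetic cost at the odd primes, with the window; `x0 ≤ ... ≤ x5` are the breakpoints -/
noncomputable def cwinE (K0 b0 f0 E0 : ℕ) (x0 x1 x2 x3 x4 x5 : ℝ) : ℝ :=
  cplain K0 b0 f0 E0 - K0 * (x5 - x0) +
    (x1 - x0) * (winF b0 f0 E0 K0 x0 + winF b0 f0 E0 K0 x1) / 2 +
    (x2 - x1) * (winF b0 f0 E0 K0 x1 + winF b0 f0 E0 K0 x2) / 2 +
    (x3 - x2) * (winF b0 f0 E0 K0 x2 + winF b0 f0 E0 K0 x3) / 2 +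
    (x4 - x3) * (winF b0 f0 E0 K0 x3 + winF b0 f0 E0 K0 x4) / 2 +
    (x5 - x4) * (winF b0 f0 E0 K0 x4 + winF b0 f0 E0 K0 x5) / 2

/-- **T1a with the window.** -/
theorem arithLower_win (K0 b0 f0 E0 : ℕ) {c2 : ℝ} (hT : TwoBound K0 b0 f0 E0 c2)
    (hD : |4 * (E0 : ℝ) - 2 * K0 - b0 - f0| ≤ K0) (x0 x1 x2 x3 x4 x5 : ℝ) (h0 : 0 ≤ x0)
    (h01 : x0 ≤ x1) (h12 : x1 ≤ x2) (h23 : x2 ≤ x3) (h34 : x3 ≤ x4) (h45 : x4 ≤ x5)
    (h5 : x5 ≤ ((K0 : ℝ) + b0 + f0) / 2) :
    ArithLower K0 b0 f0 E0 (cwinE K0 b0 f0 E0 x0 x1 x2 x3 x4 x5 + c2) := by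
  have h1 := arith_lower_gen K0 b0 f0 E0 (φ := phiW b0 f0 E0 K0)
    (Λ := 10) (C0 := 100) (c2 := c2) (fun y => phiW_nonneg (Nat.cast_nonneg _)) (by norm_num)
    (fun x y => phiW_lip _ _ _ _ x y) (by norm_num)
    (fun n κ hn hκ p q hq l hl h2 hr => loc_phiW K0 b0 f0 E0 n κ hn hκ p q hq l hl h2 hr) hT
  have hK0 : (0 : ℝ) ≤ K0 := Nat.cast_nonneg _
  have hb0 : (0 : ℝ) ≤ b0 := Nat.cast_nonneg _
  have hf0 : (0 : ℝ) ≤ f0 := Nat.cast_nonneg _
  have hE0 : (0 : ℝ) ≤ E0 := Nat.cast_nonneg _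
  have hc := continuous_phiW (b0 : ℝ) f0 E0 K0
  have h2 : ∫ y in (0 : ℝ)..XE K0 b0 f0 E0, phiW b0 f0 E0 K0 y ≤
      cwinE K0 b0 f0 E0 x0 x1 x2 x3 x4 x5 := by
    have hsplit : ∫ y in (0 : ℝ)..XE K0 b0 f0 E0, phiW b0 f0 E0 K0 y =
        (∫ y in (0 : ℝ)..x0, phiW b0 f0 E0 K0 y) + (∫ y in x0..x1, phiW b0 f0 E0 K0 y) +
        (∫ y in x1..x2, phiW b0 f0 E0 K0 y) + (∫ y in x2..x3, phiW b0 f0 E0 K0 y) +
        (∫ y in x3..x4, phiW b0 f0 E0 K0 y) + (∫ y in x4..x5, phiW b0 f0 E0 K0 y) +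
        ∫ y in x5..XE K0 b0 f0 E0, phiW b0 f0 E0 K0 y := by
      rw [intervalIntegral.integral_add_adjacent_intervals, intervalIntegral.integral_add_adjacent_intervals,
        intervalIntegral.integral_add_adjacent_intervals, intervalIntegral.integral_add_adjacent_intervals,
        intervalIntegral.integral_add_adjacent_intervals, intervalIntegral.integral_add_adjacent_intervals] <;>
      exact hc.intervalIntegrable _ _
    have i0 := int_phiW_K (b0 : ℝ) f0 E0 K0 h0
    have i1 := int_phiW_win (b0 : ℝ) f0 E0 K0 h01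
    have i2 := int_phiW_win (b0 : ℝ) f0 E0 K0 h12
    have i3 := int_phiW_win (b0 : ℝ) f0 E0 K0 h23
    have i4 := int_phiW_win (b0 : ℝ) f0 E0 K0 h34
    have i5 := int_phiW_win (b0 : ℝ) f0 E0 K0 h45
    have i6 := int_phiW_plain hc (A := 2 * E0) (B := 2 * K0 + b0 + f0 - 2 * E0) (K := K0)
      (X := XE K0 b0 f0 E0) (a := x5) (fun y => by
        unfold phiW plainF
        exact min_le_min le_rfl (min_le_left _ _)) (by
        refine le_trans (le_of_eq ?_) hD
        congr 1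
        ring) (by linarith only [h5]) (by
        unfold XE
        linarith only [hK0, hb0, hf0, hE0]) (by
        unfold XE
        linarith only [hK0, hb0, hf0, hE0])
    rw [hsplit]
    unfold cwinE cplain
    linarith only [i0, i1, i2, i3, i4, i5, i6]
  intro ε hε
  filter_upwards [h1 ε hε] with n hn κ hκ p q hq hdet
  refine le_trans (Real.exp_le_exp.2 ?_) (hn κ hκ p q hq hdet)
  have h3 : (0 : ℝ) ≤ (n : ℝ) ^ 2 := by positivity
  have h4 := mul_le_mul_of_nonneg_right h2 h3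
  linarith only [h4]

end Vale.Agent.P021.R2.H542
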